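import Vale.Agent.P256.H283.Rell
import Mathlib.Analysis.Matrix.Spectrum
import Mathlib.LinearAlgebra.Matrix.ToLinearEquiv
import Mathlib.Data.Matrix.Block

/-!
# P256, n = 4 (helper283): Rellich's theorem for Hermitian matrix families
-/

set_option linter.all false

open Filter Topology Polynomial Matrix
open scoped ComplexConjugate

namespace Vale.Agent.P256.H283

variable {s₀ : ℝ} {f g : ℝ → ℂ}

/-- matrix families with analytic algebraic entries -/
def NM {m n : Type*} (s₀ : ℝ) (M : ℝ → Matrix m n ℂ) : Prop := ∀ i j, NA s₀ (fun s => M s i j)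

section NM

variable {l m n : Type*}

theorem NM.mul [Fintype m] {M : ℝ → Matrix l m ℂ} {N : ℝ → Matrix m n ℂ} (hM : NM s₀ M)
    (hN : NM s₀ N) : NM s₀ fun s => M s * N s := by
  intro i j
  simp only [Matrix.mul_apply]
  exact NA.sum fun k _ => (hM i k).mul (hN k j)

theorem NM.add {M N : ℝ → Matrix m n ℂ} (hM : NM s₀ M) (hN : NM s₀ N) :
    NM s₀ fun s => M s + N s := fun i j => (hM i j).add (hN i j)

theorem NM.sub {M N : ℝ → Matrix m n ℂ} (hM : NM s₀ M) (hN : NM s₀ N) :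
    NM s₀ fun s => M s - N s := fun i j => (hM i j).sub (hN i j)

theorem NM.neg {M : ℝ → Matrix m n ℂ} (hM : NM s₀ M) : NM s₀ fun s => -M s :=
  fun i j => (hM i j).neg

theorem NM.smul {M : ℝ → Matrix m n ℂ} (hf : NA s₀ f) (hM : NM s₀ M) : NM s₀ fun s => f s • M s :=
  fun i j => hf.mul (hM i j)

theorem NM.const (M : Matrix m n ℂ) : NM s₀ fun _ => M := fun i j => NA.const _

theorem NM.ct {M : ℝ → Matrix m n ℂ} (hM : NM s₀ M) : NM s₀ fun s => (M s)ᴴ :=
  fun i j => (hM j i).conj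

theorem NM.congr {M N : ℝ → Matrix m n ℂ} (hM : NM s₀ M) (h : ∀ᶠ s in 𝓝 s₀, N s = M s) :
    NM s₀ N := fun i j => (hM i j).congr (h.mono fun s hs => by rw [hs])

theorem NM.submatrix {p q : Type*} {M : ℝ → Matrix m n ℂ} (hM : NM s₀ M) (e : p → m) (e' : q → n) :
    NM s₀ fun s => (M s).submatrix e e' := fun i j => hM (e i) (e' j)

theorem NM.diagonal [DecidableEq m] {d : m → ℝ → ℂ} (hd : ∀ i, NA s₀ (d i)) :
    NM s₀ fun s => Matrix.diagonal (fun i => d i s) := by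
  intro i j
  by_cases h : i = j
  · subst h
    simp only [Matrix.diagonal_apply_eq]
    exact hd i
  · simp only [Matrix.diagonal_apply_ne _ h]
    exact NA.const 0

theorem NM.det [Fintype n] [DecidableEq n] {M : ℝ → Matrix n n ℂ} (hM : NM s₀ M) :
    NA s₀ fun s => (M s).det := by
  simp only [Matrix.det_apply']
  exact NA.sum fun σ _ => (NA.const _).mul (NA.prod fun i _ => hM _ _)

/-- the characteristic polynomial has analytic algebraic coefficients -/
theorem NM.charpoly [Fintype n] [DecidableEq n] {M : ℝ → Matrix n n ℂ} (hM : NM s₀ M) :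
    PP (naS s₀) fun s => (M s).charpoly := by
  simp only [Matrix.charpoly, Matrix.det_apply']
  refine PP.sum fun σ _ => PP.mul (PP.const cst_na _) (PP.prod cst_na fun i _ => ?_)
  simp only [Matrix.charmatrix_apply]
  exact (PP.const cst_na _).sub (PP.C (hM _ _))

/-- matrix families which agree off the point agree near the point -/
theorem mat_eq_of_punct [Finite m] [Finite n] {M N : ℝ → Matrix m n ℂ} (hM : NM s₀ M)
    (hN : NM s₀ N) (h : ∀ᶠ s in 𝓝[≠] s₀, M s = N s) : ∀ᶠ s in 𝓝 s₀, M s = N s := by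
  have h1 : ∀ i j, ∀ᶠ s in 𝓝 s₀, M s i j = N s i j := by
    intro i j
    refine eq_of_punct (hM i j).an.continuousAt (hN i j).an.continuousAt ?_
    filter_upwards [h] with s hs
    rw [hs]
  have h2 := eventually_all.2 fun i => eventually_all.2 (h1 i)
  filter_upwards [h2] with s hs
  ext i j
  exact hs i j

end NM

/-! ### The kernel vector -/

theorem NA.order (hf : NA s₀ f) (h : ¬ ∀ᶠ s in 𝓝 s₀, f s = 0) :
    ∃ (n : ℕ) (g : ℝ → ℂ), NA s₀ g ∧ g s₀ ≠ 0 ∧
      ∀ᶠ s in 𝓝 s₀, f s = ((s - s₀ : ℝ) : ℂ) ^ n * g s := by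
  obtain ⟨n, g, hg, hg0, h1⟩ := analytic_order hf.an h
  refine ⟨n, g, NA.of_mul hg hf.alg (pw_na s₀ n).alg (pw_ne s₀ n) ?_, hg0, h1⟩
  filter_upwards [h1.filter_mono nhdsWithin_le_nhds] with s hs
  exact hs.symm

theorem germ_sum {ι : Type*} (t : Finset ι) (h : ι → ℝ → ℂ) :
    ∑ i ∈ t, (h i : Gm s₀) = ((fun s => ∑ i ∈ t, h i s : ℝ → ℂ) : Gm s₀) := by
  classical
  induction t using Finset.induction_on with
  | empty => simp only [Finset.sum_empty]; rfl
  | insert a t ha ih =>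
    rw [Finset.sum_insert ha, ih]
    simp only [Finset.sum_insert ha]
    rfl

theorem germ_prod {ι : Type*} (t : Finset ι) (h : ι → ℝ → ℂ) :
    ∏ i ∈ t, (h i : Gm s₀) = ((fun s => ∏ i ∈ t, h i s : ℝ → ℂ) : Gm s₀) := by
  classical
  induction t using Finset.induction_on with
  | empty => simp only [Finset.prod_empty]; rfl
  | insert a t ha ih =>
    rw [Finset.prod_insert ha, ih]
    simp only [Finset.prod_insert ha]
    rfl

instance oa_nontrivial (s₀ : ℝ) : Nontrivial (OA s₀) := by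
  refine ⟨0, 1, ?_⟩
  intro h
  have h1 : ((fun _ => (0 : ℂ) : ℝ → ℂ) : Gm s₀) = ((fun _ => (1 : ℂ) : ℝ → ℂ) : Gm s₀) :=
    congrArg Subtype.val h
  have h2 : ∀ᶠ s : ℝ in 𝓝[≠] s₀, (0 : ℂ) = 1 := Germ.coe_eq.1 h1
  obtain ⟨s, hs⟩ := h2.exists
  exact zero_ne_one hs

instance oa_domain (s₀ : ℝ) : IsDomain (OA s₀) := NoZeroDivisors.to_isDomain _

/-- a singular family of matrices has a kernel vector -/
theorem exists_kernel {n : Type*} [Fintype n] [DecidableEq n] {M : ℝ → Matrix n n ℂ}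
    (hM : NM s₀ M) (hdet : ∀ᶠ s in 𝓝[≠] s₀, (M s).det = 0) :
    ∃ w : n → ℝ → ℂ, (∀ i, NA s₀ (w i)) ∧ (∃ i, w i s₀ ≠ 0) ∧
      ∀ᶠ s in 𝓝 s₀, (M s) *ᵥ (fun i => w i s) = 0 := by
  let A : Matrix n n (OA s₀) := fun i j =>
    ⟨((fun s => M s i j : ℝ → ℂ) : Gm s₀), alg_iff.1 (hM i j).alg, fun s => M s i j, (hM i j).an, rfl⟩
  have hA : A.det = 0 := by
    apply Subtype.ext
    have h1 : ((A.det : OA s₀) : Gm s₀) = (A.map (OA s₀).subtype).det := by
      exact RingHom.map_det ((OA s₀).val : OA s₀ →+* Gm s₀) A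
    rw [h1, Matrix.det_apply']
    have h2 : ∀ σ : Equiv.Perm n, ((Equiv.Perm.sign σ : ℤ) : Gm s₀) *
        ∏ i, (A.map (OA s₀).subtype) (σ i) i =
        ((fun s => ((Equiv.Perm.sign σ : ℤ) : ℂ) * ∏ i, M s (σ i) i : ℝ → ℂ) : Gm s₀) := by
      intro σ
      have h3 : ∏ i, (A.map (OA s₀).subtype) (σ i) i =
          ((fun s => ∏ i, M s (σ i) i : ℝ → ℂ) : Gm s₀) := germ_prod _ _
      rw [h3]
      rfl
    rw [Finset.sum_congr rfl fun σ _ => h2 σ, germ_sum]
    refine Germ.coe_eq.2 ?_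
    filter_upwards [hdet] with s hs
    rw [Matrix.det_apply'] at hs
    exact hs
  obtain ⟨v, hv0, hv⟩ := (Matrix.exists_mulVec_eq_zero_iff).2 hA
  have hv' : ∀ i, ∃ w : ℝ → ℂ, NA s₀ w ∧ ((v i : OA s₀) : Gm s₀) = (w : Gm s₀) := by
    intro i
    obtain ⟨h1, w, hw, h2⟩ := (v i).2
    refine ⟨w, ⟨hw, ?_⟩, h2⟩
    rw [alg_iff, ← h2]
    exact h1
  choose w hw hwv using hv'
  have hker : ∀ᶠ s in 𝓝[≠] s₀, (M s) *ᵥ (fun i => w i s) = 0 := by
    have h1 : ∀ i, ∀ᶠ s in 𝓝[≠] s₀, ∑ j, M s i j * w j s = 0 := by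
      intro i
      have h2 : ((A *ᵥ v) i : OA s₀) = 0 := by rw [hv]; rfl
      have h3 : (((A *ᵥ v) i : OA s₀) : Gm s₀) = ∑ j, ((fun s => M s i j * w j s : ℝ → ℂ) : Gm s₀) := by
        rw [Matrix.mulVec, dotProduct, AddSubmonoidClass.coe_finset_sum]
        refine Finset.sum_congr rfl fun j _ => ?_
        rw [MulMemClass.coe_mul, hwv j]
        rfl
      rw [h2, germ_sum] at h3
      exact Germ.coe_eq.1 h3.symm
    filter_upwards [eventually_all.2 h1] with s hs
    funext i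
    exact hs i
  have hne : ∃ i, ¬ ∀ᶠ s in 𝓝 s₀, w i s = 0 := by
    by_contra hcon
    push Not at hcon
    apply hv0
    funext i
    apply Subtype.ext
    rw [hwv i]
    exact Germ.coe_eq.2 ((hcon i).filter_mono nhdsWithin_le_nhds)
  classical
  let I : Finset n := Finset.univ.filter fun i => ¬ ∀ᶠ s in 𝓝 s₀, w i s = 0
  have hI : I.Nonempty := by
    obtain ⟨i, hi⟩ := hne
    exact ⟨i, by simp only [I, Finset.mem_filter, Finset.mem_univ, true_and]; exact hi⟩
  have hord : ∀ i, ∃ (k : ℕ) (g : ℝ → ℂ), i ∈ I → (NA s₀ g ∧ g s₀ ≠ 0 ∧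
      ∀ᶠ s in 𝓝 s₀, w i s = ((s - s₀ : ℝ) : ℂ) ^ k * g s) := by
    intro i
    by_cases hi : i ∈ I
    · have hi' : ¬ ∀ᶠ s in 𝓝 s₀, w i s = 0 := by
        simpa only [I, Finset.mem_filter, Finset.mem_univ, true_and] using hi
      obtain ⟨k, g, h⟩ := (hw i).order hi'
      exact ⟨k, g, fun _ => h⟩
    · exact ⟨0, fun _ => 0, fun h => absurd h hi⟩
  choose k g hg using hord
  obtain ⟨i₀, hi₀, hmin⟩ := Finset.exists_min_image I k hI
  let w' : n → ℝ → ℂ := fun i s => if i ∈ I then ((s - s₀ : ℝ) : ℂ) ^ (k i - k i₀) * g i s else 0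
  have hw'n : ∀ i, NA s₀ (w' i) := by
    intro i
    by_cases hi : i ∈ I
    · simp only [w', hi, if_true]
      exact (pw_na s₀ _).mul (hg i hi).1
    · simp only [w', hi, if_false]
      exact NA.const 0
  have hrel : ∀ᶠ s in 𝓝 s₀, ∀ i, w i s = ((s - s₀ : ℝ) : ℂ) ^ k i₀ * w' i s := by
    refine eventually_all.2 fun i => ?_
    by_cases hi : i ∈ I
    · filter_upwards [(hg i hi).2.2] with s hs
      simp only [w', hi, if_true]
      rw [hs, ← mul_assoc, ← pow_add, Nat.add_sub_cancel' (hmin i hi)]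
    · have hi' : ∀ᶠ s in 𝓝 s₀, w i s = 0 := by
        by_contra hcon
        apply hi
        simpa only [I, Finset.mem_filter, Finset.mem_univ, true_and] using hcon
      filter_upwards [hi'] with s hs
      simp only [w', hi, if_false]
      rw [hs, mul_zero]
  refine ⟨w', hw'n, ⟨i₀, ?_⟩, ?_⟩
  · simp only [w', hi₀, if_true, Nat.sub_self, pow_zero, one_mul]
    exact (hg i₀ hi₀).2.1
  · have h1 : ∀ᶠ s in 𝓝[≠] s₀, (M s) *ᵥ (fun i => w' i s) = 0 := by
      filter_upwards [hker, hrel.filter_mono nhdsWithin_le_nhds, pw_ne s₀ (k i₀)] with s h2 h3 h4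
      have h5 : (fun i => w i s) = (((s - s₀ : ℝ) : ℂ) ^ k i₀) • (fun i => w' i s) := by
        funext i
        rw [h3 i]
        rfl
      rw [h5, Matrix.mulVec_smul] at h2
      exact (smul_eq_zero.1 h2).resolve_left h4
    have h2 : ∀ i, ∀ᶠ s in 𝓝 s₀, ((M s) *ᵥ (fun i => w' i s)) i = 0 := by
      intro i
      refine eq_of_punct (f := fun s => ((M s) *ᵥ (fun i => w' i s)) i) (g := fun _ => 0) ?_
        continuousAt_const ?_
      · have h3 : NA s₀ (fun s => ∑ j, M s i j * w' j s) := NA.sum fun j _ => (hM i j).mul (hw'n j)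
        exact h3.an.continuousAt
      · filter_upwards [h1] with s hs
        rw [hs]
        rfl
    filter_upwards [eventually_all.2 h2] with s hs
    funext i
    exact hs i

/-- normalisation -/
theorem exists_unit {n : Type*} [Fintype n] {w : n → ℝ → ℂ} (hw : ∀ i, NA s₀ (w i))
    (h0 : ∃ i, w i s₀ ≠ 0) : ∃ (u : n → ℝ → ℂ) (c : ℝ → ℂ), (∀ i, NA s₀ (u i)) ∧
      ∀ᶠ s in 𝓝 s₀, (∑ i, conj (u i s) * u i s = 1 ∧ (fun i => u i s) = c s • (fun i => w i s)) := by
  have hq : NA s₀ (fun s => ∑ i, conj (w i s) * w i s) := NA.sum fun i _ => (hw i).conj.mul (hw i)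
  have hqr : ∀ s, ∑ i, conj (w i s) * w i s = ((∑ i, ‖w i s‖ ^ 2 : ℝ) : ℂ) := by
    intro s
    push_cast
    refine Finset.sum_congr rfl fun i _ => ?_
    rw [mul_comm, Complex.mul_conj, Complex.normSq_eq_norm_sq]
    push_cast
    rfl
  have hpos : 0 < ∑ i, ‖w i s₀‖ ^ 2 := by
    obtain ⟨i, hi⟩ := h0
    have h1 : ‖w i s₀‖ ^ 2 ≤ ∑ i, ‖w i s₀‖ ^ 2 :=
      Finset.single_le_sum (f := fun i => ‖w i s₀‖ ^ 2) (fun _ _ => by positivity) (Finset.mem_univ i)
    have h2 : 0 < ‖w i s₀‖ ^ 2 := by positivity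
    linarith
  have hρ : NA s₀ (fun s => ((Real.sqrt (∑ i, ‖w i s‖ ^ 2) : ℝ) : ℂ)) := by
    have h1 := hq.sqrt (Eventually.of_forall fun s => by rw [hqr, Complex.ofReal_im])
      (by rw [hqr, Complex.ofReal_re]; exact hpos)
    refine h1.congr (Eventually.of_forall fun s => ?_)
    rw [hqr, Complex.ofReal_re]
  have hρ0 : ((Real.sqrt (∑ i, ‖w i s₀‖ ^ 2) : ℝ) : ℂ) ≠ 0 := by
    rw [Complex.ofReal_ne_zero]
    exact (Real.sqrt_pos.2 hpos).ne'
  have hρi := hρ.inv hρ0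
  refine ⟨fun i s => (((Real.sqrt (∑ i, ‖w i s‖ ^ 2) : ℝ) : ℂ))⁻¹ * w i s,
    fun s => (((Real.sqrt (∑ i, ‖w i s‖ ^ 2) : ℝ) : ℂ))⁻¹, fun i => hρi.mul (hw i), ?_⟩
  filter_upwards [hρ.an.continuousAt.eventually_ne hρ0] with s hs
  refine ⟨?_, rfl⟩
  have h1 : ∀ i, conj ((((Real.sqrt (∑ i, ‖w i s‖ ^ 2) : ℝ) : ℂ))⁻¹ * w i s) *
      ((((Real.sqrt (∑ i, ‖w i s‖ ^ 2) : ℝ) : ℂ))⁻¹ * w i s) =
      ((((Real.sqrt (∑ i, ‖w i s‖ ^ 2) : ℝ) : ℂ)) ^ 2)⁻¹ * (conj (w i s) * w i s) := by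
    intro i
    rw [map_mul, map_inv₀, Complex.conj_ofReal]
    ring
  rw [Finset.sum_congr rfl fun i _ => h1 i, ← Finset.mul_sum, hqr, ← Complex.ofReal_pow,
    Real.sq_sqrt (Finset.sum_nonneg fun i _ => by positivity)]
  refine inv_mul_cancel₀ ?_
  intro h2
  apply hs
  have h3 : (∑ i, ‖w i s‖ ^ 2 : ℝ) = 0 := by exact_mod_cast h2
  rw [h3, Real.sqrt_zero, Complex.ofReal_zero]

/-! ### A unitary matrix with a given first column -/

theorem reflect {n : Type*} [Fintype n] [DecidableEq n] (u e : n → ℂ) (ε : ℂ) (hε : conj ε * ε = 1)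
    (hu : star u ⬝ᵥ u = 1) (he : star e ⬝ᵥ e = 1) (hγ : 1 - ε * (star u ⬝ᵥ e) ≠ 0) :
    (ε • (1 - (1 - ε * (star u ⬝ᵥ e))⁻¹ • vecMulVec (ε • e - u) (star (ε • e - u))))ᴴ *
      (ε • (1 - (1 - ε * (star u ⬝ᵥ e))⁻¹ • vecMulVec (ε • e - u) (star (ε • e - u)))) = 1 ∧
    (ε • (1 - (1 - ε * (star u ⬝ᵥ e))⁻¹ • vecMulVec (ε • e - u) (star (ε • e - u)))) *ᵥ e = u := by
  set w : n → ℂ := ε • e - u with hw
  set γ : ℂ := 1 - ε * (star u ⬝ᵥ e) with hγd
  have hγc : conj γ = 1 - conj ε * (star e ⬝ᵥ u) := by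
    rw [hγd, map_sub, map_one, map_mul]
    congr 2
    have h1 : star (star u ⬝ᵥ e) = star e ⬝ᵥ u := by
      rw [Matrix.star_dotProduct, star_star]
    exact h1
  have hww : star w ⬝ᵥ w = γ + conj γ := by
    rw [hγc, hγd, hw, star_sub, star_smul, sub_dotProduct, dotProduct_sub, dotProduct_sub,
      smul_dotProduct, smul_dotProduct, dotProduct_smul, dotProduct_smul, he, hu]
    simp only [smul_eq_mul, mul_one]
    have h1 : star ε * ε = 1 := hε
    rw [h1]
    have h2 : (star ε : ℂ) = conj ε := rfl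
    rw [h2]
    ring
  have hwe : ε * (star w ⬝ᵥ e) = γ := by
    rw [hγd, hw, star_sub, star_smul, sub_dotProduct, smul_dotProduct, he]
    simp only [smul_eq_mul, mul_one]
    have h1 : star ε * ε = 1 := hε
    linear_combination h1
  set P := vecMulVec w (star w) with hP
  have hPP : P * P = (star w ⬝ᵥ w) • P := by
    rw [hP, vecMulVec_mul_vecMulVec, vecMulVec_smul]
  have hPh : Pᴴ = P := by
    rw [hP, conjTranspose_vecMulVec, star_star]
  constructor
  · rw [conjTranspose_smul, conjTranspose_sub, conjTranspose_one, conjTranspose_smul, hPh,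
      smul_mul_smul_comm]
    have h1 : star ε * ε = 1 := hε
    rw [h1, one_smul, Matrix.sub_mul, Matrix.mul_sub, Matrix.mul_sub, Matrix.one_mul, Matrix.one_mul,
      Matrix.mul_one, smul_mul_smul_comm, hPP, hww, smul_smul]
    have h2 : (star γ⁻¹ : ℂ) = (conj γ)⁻¹ := by
      change conj γ⁻¹ = _
      rw [map_inv₀]
    have h3 : conj γ ≠ 0 := by
      intro h
      apply hγ
      rw [← Complex.conj_conj γ, h, map_zero]
    rw [h2]
    have h4 : (conj γ)⁻¹ * γ⁻¹ * (γ + conj γ) = (conj γ)⁻¹ + γ⁻¹ := by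
      field_simp
    rw [h4, add_smul]
    abel
  · rw [smul_mulVec, sub_mulVec, one_mulVec, smul_mulVec, hP, vecMulVec_mulVec]
    have h1 : ε • (e - γ⁻¹ • (MulOpposite.op (star w ⬝ᵥ e) • w)) = ε • e - w := by
      rw [smul_sub]
      congr 1
      rw [op_smul_eq_smul, smul_smul, smul_smul]
      have h2 : ε * γ⁻¹ * (star w ⬝ᵥ e) = 1 := by
        calc ε * γ⁻¹ * (star w ⬝ᵥ e) = γ⁻¹ * (ε * (star w ⬝ᵥ e)) := by ring
          _ = 1 := by rw [hwe, inv_mul_cancel₀ hγ]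
      rw [h2, one_smul]
    rw [h1, hw]
    abel

/-- an analytic family of unitary matrices with a given column -/
theorem exists_unitary {n : Type*} [Fintype n] [DecidableEq n] {u : n → ℝ → ℂ}
    (hu : ∀ i, NA s₀ (u i)) (hn : ∀ᶠ s in 𝓝 s₀, ∑ i, conj (u i s) * u i s = 1) (i₀ : n) :
    ∃ V : ℝ → Matrix n n ℂ, NM s₀ V ∧ ∀ᶠ s in 𝓝 s₀, ((V s)ᴴ * V s = 1 ∧
      V s *ᵥ (Pi.single i₀ 1) = fun i => u i s) := by
  have hε : ∃ ε : ℂ, conj ε * ε = 1 ∧ 1 - ε * conj (u i₀ s₀) ≠ 0 := by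
    by_cases h : conj (u i₀ s₀) = 1
    · refine ⟨-1, by simp, ?_⟩
      rw [h]
      norm_num
    · refine ⟨1, by simp, ?_⟩
      rw [one_mul]
      exact sub_ne_zero.2 (Ne.symm h)
  obtain ⟨ε, hε1, hε2⟩ := hε
  set e : n → ℂ := Pi.single i₀ 1 with he
  have hue : ∀ s, star (fun i => u i s) ⬝ᵥ e = conj (u i₀ s) := by
    intro s
    rw [he, dotProduct_single, mul_one]
    rfl
  have hγn : NA s₀ (fun s => 1 - ε * conj (u i₀ s)) :=
    (NA.const 1).sub ((NA.const ε).mul (hu i₀).conj)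
  refine ⟨fun s => ε • (1 - (1 - ε * (star (fun i => u i s) ⬝ᵥ e))⁻¹ •
    vecMulVec (ε • e - fun i => u i s) (star (ε • e - fun i => u i s))), ?_, ?_⟩
  · simp only [hue]
    refine NM.smul (NA.const ε) (NM.sub (NM.const 1) (NM.smul (hγn.inv hε2) ?_))
    intro i j
    simp only [vecMulVec_apply, Pi.sub_apply, Pi.smul_apply, Pi.star_apply, smul_eq_mul]
    exact ((NA.const _).sub (hu i)).mul ((NA.const (ε * e j)).sub (hu j)).conj
  · filter_upwards [hn, hγn.an.continuousAt.eventually_ne hε2] with s h1 h2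
    refine reflect (fun i => u i s) e ε hε1 ?_ ?_ ?_
    · exact h1
    · rw [he, dotProduct_single, mul_one]
      simp
    · rw [hue]
      exact h2

/-! ### Diagonalisation -/

/-- analytic families of Hermitian matrices of the given size can be diagonalised -/
def DiagP (s₀ : ℝ) (n : Type) [Fintype n] [DecidableEq n] : Prop :=
  ∀ H : ℝ → Matrix n n ℂ, NM s₀ H → (∀ᶠ s in 𝓝 s₀, (H s).IsHermitian) →
    ∃ (U : ℝ → Matrix n n ℂ) (lam : n → ℝ → ℝ), NM s₀ U ∧ (∀ i, NA s₀ fun s => (lam i s : ℂ)) ∧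
      ∀ᶠ s in 𝓝 s₀, ((U s)ᴴ * U s = 1 ∧
        H s = U s * Matrix.diagonal (fun i => (lam i s : ℂ)) * (U s)ᴴ)

theorem diag_equiv {m n : Type} [Fintype m] [DecidableEq m] [Fintype n] [DecidableEq n]
    (e : m ≃ n) (h : DiagP s₀ m) : DiagP s₀ n := by
  intro H hH hh
  obtain ⟨U, lam, hU, hl, h1⟩ := h (fun s => (H s).submatrix e e) (hH.submatrix e e) (by
    filter_upwards [hh] with s hs
    exact hs.submatrix e)
  refine ⟨fun s => (U s).submatrix e.symm e.symm, fun i => lam (e.symm i), hU.submatrix _ _,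
    fun i => hl _, ?_⟩
  filter_upwards [h1] with s hs
  constructor
  · rw [conjTranspose_submatrix, submatrix_mul_equiv, hs.1, submatrix_one_equiv]
  · have h2 : H s = ((H s).submatrix e e).submatrix e.symm e.symm := by
      rw [submatrix_submatrix]
      simp
    rw [h2, hs.2, conjTranspose_submatrix]
    have h3 : Matrix.diagonal (fun i => (lam (e.symm i) s : ℂ)) =
        (Matrix.diagonal (fun i => (lam i s : ℂ))).submatrix e.symm e.symm := by
      rw [submatrix_diagonal_equiv]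
      rfl
    rw [h3, submatrix_mul_equiv, submatrix_mul_equiv]

theorem herm_root {n : Type*} [Fintype n] [DecidableEq n] {A : Matrix n n ℂ} (hA : A.IsHermitian)
    {z : ℂ} (hz : A.charpoly.eval z = 0) : z.im = 0 := by
  rw [hA.charpoly_eq, eval_prod, Finset.prod_eq_zero_iff] at hz
  obtain ⟨i, _, hi⟩ := hz
  rw [eval_sub, eval_X, eval_C, sub_eq_zero] at hi
  rw [hi]
  exact Complex.ofReal_im _

/-- an analytic eigenvalue -/
theorem exists_eigen {n : Type*} [Fintype n] [DecidableEq n] {H : ℝ → Matrix n n ℂ} (hH : NM s₀ H)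
    (hh : ∀ᶠ s in 𝓝 s₀, (H s).IsHermitian) : ∃ lam : Fin (Fintype.card n) → ℝ → ℂ,
      (∀ i, NA s₀ (lam i)) ∧ (∀ i, ∀ᶠ s in 𝓝 s₀, (lam i s).im = 0) ∧
      ∀ᶠ s in 𝓝 s₀, (H s).charpoly = ∏ i, (X - C (lam i s)) := by
  refine rellich_poly hH.charpoly (Eventually.of_forall fun s => (H s).charpoly_monic)
    (Eventually.of_forall fun s => (H s).charpoly_natDegree_eq_dim) ?_
  filter_upwards [hh.filter_mono nhdsWithin_le_nhds] with s hs z hz
  exact herm_root hs hz

theorem diag_succ {m : Type} [Fintype m] [DecidableEq m] (IH : DiagP s₀ m) :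
    DiagP s₀ (Unit ⊕ m) := by
  intro H hH hh
  obtain ⟨lam, hl, hlr, hch⟩ := exists_eigen hH hh
  have hcard : 0 < Fintype.card (Unit ⊕ m) := by
    rw [Fintype.card_sum, Fintype.card_unit]
    omega
  set μ : ℝ → ℂ := lam ⟨0, hcard⟩ with hμ
  have hμn : NA s₀ μ := hl _
  -- the eigenvector
  have hdet : ∀ᶠ s in 𝓝[≠] s₀, (H s - μ s • (1 : Matrix (Unit ⊕ m) (Unit ⊕ m) ℂ)).det = 0 := by
    filter_upwards [hch.filter_mono nhdsWithin_le_nhds] with s hs
    have h1 : (H s).charpoly.eval (μ s) = 0 := by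
      rw [hs, eval_prod]
      exact Finset.prod_eq_zero (Finset.mem_univ ⟨0, hcard⟩) (by simp [hμ])
    rw [Matrix.eval_charpoly] at h1
    have h2 : H s - μ s • (1 : Matrix (Unit ⊕ m) (Unit ⊕ m) ℂ) = -(Matrix.scalar _ (μ s) - H s) := by
      rw [neg_sub, Matrix.smul_one_eq_diagonal]
      rfl
    rw [h2, Matrix.det_neg, h1, mul_zero]
  obtain ⟨w, hw, hw0, hwk⟩ := exists_kernel (hH.sub (NM.smul hμn (NM.const 1))) hdet
  obtain ⟨u, c, hu, hu2⟩ := exists_unit hw hw0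
  have hHu : ∀ᶠ s in 𝓝 s₀, (H s) *ᵥ (fun i => u i s) = μ s • (fun i => u i s) := by
    filter_upwards [hwk, hu2] with s h1 h2
    rw [h2.2, Matrix.mulVec_smul]
    rw [sub_mulVec, smul_mulVec, one_mulVec, sub_eq_zero] at h1
    rw [h1, smul_comm]
  obtain ⟨V, hV, hV2⟩ := exists_unitary hu (hu2.mono fun s h => h.1) (Sum.inl () : Unit ⊕ m)
  -- the transformed matrix
  set K : ℝ → Matrix (Unit ⊕ m) (Unit ⊕ m) ℂ := fun s => (V s)ᴴ * H s * V s with hK
  have hKn : NM s₀ K := (hV.ct.mul hH).mul hV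
  have hKh : ∀ᶠ s in 𝓝 s₀, (K s).IsHermitian := by
    filter_upwards [hh] with s hs
    exact isHermitian_conjTranspose_mul_mul (V s) hs
  have hKe : ∀ᶠ s in 𝓝 s₀, (K s) *ᵥ (Pi.single (Sum.inl ()) 1) = μ s • (Pi.single (Sum.inl ()) 1) := by
    filter_upwards [hV2, hHu] with s h1 h2
    simp only [hK]
    rw [← Matrix.mulVec_mulVec, h1.2, ← Matrix.mulVec_mulVec, h2, Matrix.mulVec_smul, ← h1.2,
      Matrix.mulVec_mulVec, h1.1, one_mulVec]
  have hKb : ∀ᶠ s in 𝓝 s₀, K s = Matrix.fromBlocks (Matrix.diagonal fun _ : Unit => μ s) 0 0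
      (K s).toBlocks₂₂ := by
    filter_upwards [hKh, hKe, hlr ⟨0, hcard⟩] with s h1 h2 h3
    have h4 : ∀ i, K s i (Sum.inl ()) = μ s * (Pi.single (Sum.inl ()) (1 : ℂ) : Unit ⊕ m → ℂ) i := by
      intro i
      have h5 := congrFun h2 i
      rw [Matrix.mulVec_single_one] at h5
      exact h5
    have h5 : conj (μ s) = μ s := by
      rw [Complex.conj_eq_iff_im]
      exact h3
    ext i j
    rcases i with i | i <;> rcases j with j | j
    · have hi : i = () := rfl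
      have hj : j = () := rfl
      subst hi hj
      rw [h4, fromBlocks_apply₁₁, Matrix.diagonal_apply_eq, Pi.single_eq_same, mul_one]
    · have hi : i = () := rfl
      subst hi
      rw [← h1.apply, h4, fromBlocks_apply₁₂, Pi.single_eq_of_ne (by simp), mul_zero]
      simp
    · have hj : j = () := rfl
      subst hj
      rw [h4, fromBlocks_apply₂₁, Pi.single_eq_of_ne (by simp), mul_zero]
      simp
    · rw [fromBlocks_apply₂₂]
      rfl
  obtain ⟨U', lam', hU', hl', h'⟩ := IH (fun s => (K s).toBlocks₂₂) (fun i j => hKn _ _) (by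
    filter_upwards [hKh] with s hs
    exact hs.submatrix Sum.inr)
  refine ⟨fun s => V s * Matrix.fromBlocks 1 0 0 (U' s),
    fun i => Sum.elim (fun _ s => (μ s).re) lam' i, ?_, ?_, ?_⟩
  · refine hV.mul ?_
    intro i j
    rcases i with i | i <;> rcases j with j | j
    · exact NA.const _
    · exact NA.const _
    · exact NA.const _
    · exact hU' i j
  · intro i
    rcases i with i | i
    · refine hμn.congr ?_
      filter_upwards [hlr ⟨0, hcard⟩] with s hs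
      apply Complex.ext
      · simp
      · simp only [Sum.elim_inl, Complex.ofReal_im]
        exact hs.symm
    · exact hl' i
  · filter_upwards [h', hKb, hV2, hlr ⟨0, hcard⟩] with s h1 h2 h3 h4
    have hVV : V s * (V s)ᴴ = 1 := mul_eq_one_comm.1 h3.1
    constructor
    · rw [conjTranspose_mul, Matrix.mul_assoc, ← Matrix.mul_assoc (V s)ᴴ, h3.1, Matrix.one_mul,
        fromBlocks_conjTranspose, fromBlocks_multiply]
      simp only [conjTranspose_one, conjTranspose_zero, Matrix.mul_one, Matrix.mul_zero,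
        Matrix.zero_mul, add_zero, zero_add, h1.1]
      exact fromBlocks_one
    · have hμs : (((μ s).re : ℝ) : ℂ) = μ s := by
        apply Complex.ext
        · simp
        · rw [Complex.ofReal_im]
          exact h4.symm
      have h5 : (Matrix.diagonal fun i => ((Sum.elim (fun _ s => (μ s).re) lam' i s : ℝ) : ℂ)) =
          Matrix.fromBlocks (Matrix.diagonal fun _ : Unit => μ s) 0 0
            (Matrix.diagonal fun i => (lam' i s : ℂ)) := by
        rw [fromBlocks_diagonal]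
        congr 1
        funext i
        rcases i with i | i
        · simp only [Sum.elim_inl]
          exact hμs
        · rfl
      have h6 : K s = Matrix.fromBlocks 1 0 0 (U' s) *
          (Matrix.diagonal fun i => ((Sum.elim (fun _ s => (μ s).re) lam' i s : ℝ) : ℂ)) *
          (Matrix.fromBlocks 1 0 0 (U' s))ᴴ := by
        rw [h5, fromBlocks_conjTranspose, fromBlocks_multiply, fromBlocks_multiply, h2]
        simp only [conjTranspose_one, conjTranspose_zero, Matrix.mul_one, Matrix.mul_zero,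
          Matrix.zero_mul, add_zero, zero_add, Matrix.one_mul]
        rw [← h1.2]
      have h7 : H s = V s * K s * (V s)ᴴ := by
        simp only [hK]
        calc H s = (V s * (V s)ᴴ) * H s * (V s * (V s)ᴴ) := by
              rw [hVV, Matrix.one_mul, Matrix.mul_one]
          _ = V s * ((V s)ᴴ * H s * V s) * (V s)ᴴ := by simp only [Matrix.mul_assoc]
      rw [h7, h6, conjTranspose_mul]
      simp only [Matrix.mul_assoc]

theorem diag_all (n : Type) [Fintype n] [DecidableEq n] : DiagP s₀ n := by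
  have key : ∀ d : ℕ, DiagP s₀ (Fin d) := by
    intro d
    induction d with
    | zero =>
      intro H hH hh
      refine ⟨fun _ => 1, fun i => i.elim0, NM.const 1, fun i => i.elim0,
        Eventually.of_forall fun s => ⟨by simp, ?_⟩⟩
      ext i
      exact i.elim0
    | succ d ih =>
      have e : Unit ⊕ Fin d ≃ Fin (d + 1) := Fintype.equivOfCardEq (by
        rw [Fintype.card_sum, Fintype.card_unit, Fintype.card_fin, Fintype.card_fin]
        omega)
      exact diag_equiv e (diag_succ ih)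
  exact diag_equiv (Fintype.equivFin n).symm (key _)

/-- **(Rb)** Rellich's theorem for families of Hermitian matrices -/
theorem rellich_herm {n : Type} [Fintype n] [DecidableEq n] {H : ℝ → Matrix n n ℂ}
    (hH : NM s₀ H) (hh : ∀ᶠ s in 𝓝[≠] s₀, (H s).IsHermitian) :
    ∃ (U : ℝ → Matrix n n ℂ) (lam : n → ℝ → ℝ), NM s₀ U ∧ (∀ i, NA s₀ fun s => (lam i s : ℂ)) ∧
      (∀ i, AnalyticAt ℝ (lam i) s₀) ∧
      ∀ᶠ s in 𝓝 s₀, ((U s)ᴴ * U s = 1 ∧ U s * (U s)ᴴ = 1 ∧
        H s = U s * Matrix.diagonal (fun i => (lam i s : ℂ)) * (U s)ᴴ) := by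
  have hh' : ∀ᶠ s in 𝓝 s₀, (H s).IsHermitian := mat_eq_of_punct hH.ct hH hh
  obtain ⟨U, lam, hU, hl, h⟩ := diag_all n H hH hh'
  refine ⟨U, lam, hU, hl, fun i => ?_, ?_⟩
  · have h1 : AnalyticAt ℝ (fun s => ((lam i s : ℂ)).re) s₀ :=
      (Complex.reCLM.analyticAt _).comp (hl i).an
    simpa only [Complex.ofReal_re] using h1
  · filter_upwards [h] with s hs
    exact ⟨hs.1, mul_eq_one_comm.1 hs.1, hs.2⟩

/-- equal products of linear factors, pointwise -/
theorem exists_perm {n : Type*} [Fintype n] [DecidableEq n] {a b : n → ℂ}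
    (h : ∏ i, (X - C (a i)) = ∏ i, (X - C (b i))) : ∃ σ : Equiv.Perm n, ∀ i, b (σ i) = a i := by
  have h1 : (∏ i, (X - C (a i))).roots = Finset.univ.val.map a := by
    rw [roots_prod _ _ (Finset.prod_ne_zero_iff.2 fun i _ => X_sub_C_ne_zero _)]
    simp only [roots_X_sub_C]
    exact Multiset.bind_singleton _ _
  have h2 : (∏ i, (X - C (b i))).roots = Finset.univ.val.map b := by
    rw [roots_prod _ _ (Finset.prod_ne_zero_iff.2 fun i _ => X_sub_C_ne_zero _)]
    simp only [roots_X_sub_C]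
    exact Multiset.bind_singleton _ _
  have h3 : Finset.univ.val.map a = Finset.univ.val.map b := by rw [← h1, ← h2, h]
  classical
  have h4 : ∀ c : ℂ, Nonempty ({i // a i = c} ≃ {i // b i = c}) := by
    intro c
    apply Fintype.card_eq.1
    rw [Fintype.card_subtype, Fintype.card_subtype]
    have h5 := congrArg (Multiset.count c) h3
    rw [Multiset.count_map, Multiset.count_map] at h5
    have h6 : ∀ w : n → ℂ, (Finset.univ.filter fun i => w i = c).card =
        Multiset.card (Multiset.filter (fun i => c = w i) Finset.univ.val) := by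
      intro w
      rw [Finset.card_def, Finset.filter_val]
      congr 1
      exact Multiset.filter_congr fun i _ => eq_comm
    rw [h6, h6, h5]
  exact ⟨Equiv.ofFiberEquiv (f := a) (g := b) fun c => (h4 c).some, fun i =>
    Equiv.ofFiberEquiv_map _ i⟩

/-- matching of analytic families of roots -/
theorem match_roots {n : Type*} [Fintype n] [DecidableEq n] {a b : n → ℝ → ℂ}
    (ha : ∀ i, AnalyticAt ℝ (a i) s₀) (hb : ∀ i, AnalyticAt ℝ (b i) s₀)
    (h : ∃ᶠ s in 𝓝[≠] s₀, ∏ i, (X - C (a i s)) = ∏ i, (X - C (b i s))) :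
    ∃ σ : Equiv.Perm n, ∀ᶠ s in 𝓝 s₀, ∀ i, b (σ i) s = a i s := by
  have h1 : ∃ᶠ s in 𝓝[≠] s₀, ∃ σ : Equiv.Perm n, ∀ i, b (σ i) s = a i s :=
    h.mono fun s hs => exists_perm hs
  have h2 : ∃ σ : Equiv.Perm n, ∃ᶠ s in 𝓝[≠] s₀, ∀ i, b (σ i) s = a i s := by
    by_contra hcon
    push Not at hcon
    have h3 : ∀ᶠ s in 𝓝[≠] s₀, ∀ σ : Equiv.Perm n, ¬ ∀ i, b (σ i) s = a i s :=
      eventually_all.2 fun σ => by
        have := hcon σ
        simpa only [not_forall] using this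
    refine h1 ?_
    filter_upwards [h3] with s hs
    rintro ⟨σ, hσ⟩
    exact hs σ hσ
  obtain ⟨σ, hσ⟩ := h2
  refine ⟨σ, eventually_all.2 fun i => ?_⟩
  exact eq_of_freq (hb _) (ha i) (hσ.mono fun s hs => hs i)

/-- **(Rc)** two families of Hermitian matrices with the same characteristic polynomials are
conjugate by an analytic family of unitary matrices -/
theorem herm_conj {n : Type} [Fintype n] [DecidableEq n] {H₁ H₂ : ℝ → Matrix n n ℂ}
    (h1 : NM s₀ H₁) (h2 : NM s₀ H₂) (hh1 : ∀ᶠ s in 𝓝[≠] s₀, (H₁ s).IsHermitian)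
    (hh2 : ∀ᶠ s in 𝓝[≠] s₀, (H₂ s).IsHermitian)
    (hc : ∃ᶠ s in 𝓝[≠] s₀, (H₁ s).charpoly = (H₂ s).charpoly) :
    ∃ V : ℝ → Matrix n n ℂ, NM s₀ V ∧ ∀ᶠ s in 𝓝 s₀, ((V s)ᴴ * V s = 1 ∧ V s * (V s)ᴴ = 1 ∧
      H₂ s = V s * H₁ s * (V s)ᴴ) := by
  obtain ⟨U₁, a, hU₁, ha, ha', e1⟩ := rellich_herm h1 hh1
  obtain ⟨U₂, b, hU₂, hb, hb', e2⟩ := rellich_herm h2 hh2
  have hch : ∀ (U : Matrix n n ℂ) (d : n → ℂ), Uᴴ * U = 1 →
      (U * Matrix.diagonal d * Uᴴ).charpoly = ∏ i, (X - C (d i)) := by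
    intro U d hU
    rw [Matrix.charpoly_mul_comm, ← Matrix.mul_assoc, hU, Matrix.one_mul, Matrix.charpoly_diagonal]
  obtain ⟨σ, hσ⟩ := match_roots (fun i => (ha i).an) (fun i => (hb i).an)
    ((hc.and_eventually ((e1.and e2).filter_mono nhdsWithin_le_nhds)).mono fun s hs => by
      obtain ⟨h3, h4, h5⟩ := hs
      rw [h4.2.2, h5.2.2, hch _ _ h4.1, hch _ _ h5.1] at h3
      exact h3)
  -- the permutation matrix
  set Q : Matrix n n ℂ := (1 : Matrix n n ℂ).submatrix id σ with hQ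
  have hQQ : Qᴴ * Q = 1 := by
    rw [hQ, conjTranspose_submatrix, conjTranspose_one]
    have h3 := submatrix_mul_equiv (1 : Matrix n n ℂ) (1 : Matrix n n ℂ) σ (Equiv.refl n) σ
    rw [Matrix.mul_one] at h3
    change (1 : Matrix n n ℂ).submatrix σ (Equiv.refl n) *
      (1 : Matrix n n ℂ).submatrix (Equiv.refl n) σ = 1
    rw [h3, submatrix_one_equiv]
  have hQQ' : Q * Qᴴ = 1 := mul_eq_one_comm.1 hQQ
  have hQd : ∀ d : n → ℂ, Matrix.diagonal d = Q * Matrix.diagonal (fun i => d (σ i)) * Qᴴ := by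
    intro d
    have h3 : Matrix.diagonal d * Q = Q * Matrix.diagonal (fun i => d (σ i)) := by
      ext i j
      rw [Matrix.diagonal_mul, Matrix.mul_diagonal, hQ, submatrix_apply, Matrix.one_apply]
      simp only [id]
      split_ifs with h
      · rw [h, mul_comm]
      · simp
    rw [← h3, Matrix.mul_assoc, hQQ', Matrix.mul_one]
  refine ⟨fun s => U₂ s * Q * (U₁ s)ᴴ, (hU₂.mul (NM.const Q)).mul hU₁.ct, ?_⟩
  filter_upwards [e1, e2, hσ] with s h3 h4 h5
  have hu : (U₂ s * Q * (U₁ s)ᴴ)ᴴ * (U₂ s * Q * (U₁ s)ᴴ) = 1 := by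
    rw [conjTranspose_mul, conjTranspose_mul, conjTranspose_conjTranspose]
    calc U₁ s * (Qᴴ * (U₂ s)ᴴ) * (U₂ s * Q * (U₁ s)ᴴ)
        = U₁ s * (Qᴴ * ((U₂ s)ᴴ * U₂ s) * Q) * (U₁ s)ᴴ := by simp only [Matrix.mul_assoc]
      _ = 1 := by rw [h4.1, Matrix.mul_one, hQQ, Matrix.mul_one, h3.2.1]
  refine ⟨hu, mul_eq_one_comm.1 hu, ?_⟩
  rw [conjTranspose_mul, conjTranspose_mul, conjTranspose_conjTranspose]
  have h6 : Matrix.diagonal (fun i => (b i s : ℂ)) =
      Q * Matrix.diagonal (fun i => (a i s : ℂ)) * Qᴴ := by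
    rw [hQd fun i => (b i s : ℂ)]
    congr 3
    funext i
    exact h5 i
  calc H₂ s = U₂ s * (Q * Matrix.diagonal (fun i => (a i s : ℂ)) * Qᴴ) * (U₂ s)ᴴ := by
        rw [← h6]
        exact h4.2.2
    _ = U₂ s * Q * ((U₁ s)ᴴ * U₁ s) * Matrix.diagonal (fun i => (a i s : ℂ)) *
          ((U₁ s)ᴴ * U₁ s) * Qᴴ * (U₂ s)ᴴ := by
        rw [h3.1, Matrix.mul_one, Matrix.mul_one]
        simp only [Matrix.mul_assoc]
    _ = U₂ s * Q * (U₁ s)ᴴ * (U₁ s * Matrix.diagonal (fun i => (a i s : ℂ)) * (U₁ s)ᴴ) *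
          (U₁ s * (Qᴴ * (U₂ s)ᴴ)) := by simp only [Matrix.mul_assoc]
    _ = U₂ s * Q * (U₁ s)ᴴ * H₁ s * (U₁ s * (Qᴴ * (U₂ s)ᴴ)) := by rw [← h3.2.2]

/-! ### bounded meromorphic Hermitian families -/

/-- a Hermitian family given by bounded quotients extends analytically: if `v s ≠ 0` off `s₀` and
`A s = (v s)⁻¹ • N s` has bounded characteristic coefficients (for example, a fixed spectrum),
then the entries of `A` extend to analytic algebraic functions -/
theorem herm_ext {n : Type} [Fintype n] [DecidableEq n] {A N : ℝ → Matrix n n ℂ} {v : ℝ → ℂ}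
    (hN : NM s₀ N) (hv : NA s₀ v) (hv0 : ¬ ∀ᶠ s in 𝓝 s₀, v s = 0)
    (hA : ∀ᶠ s in 𝓝[≠] s₀, v s • A s = N s) (C : ℝ)
    (hb : ∀ᶠ s in 𝓝[≠] s₀, ∀ i j, ‖A s i j‖ ≤ C) :
    ∃ A' : ℝ → Matrix n n ℂ, NM s₀ A' ∧ ∀ᶠ s in 𝓝[≠] s₀, A s = A' s := by
  have h1 : ∀ i j, ∃ w : ℝ → ℂ, NA s₀ w ∧ (∀ᶠ s in 𝓝[≠] s₀, v s ≠ 0) ∧
      ∀ᶠ s in 𝓝 s₀, N s i j = v s * w s := by
    intro i j
    refine NA.bdd_quot (hN i j) hv hv0 C ?_
    filter_upwards [hA, hb] with s h2 h3
    rw [← h2, Matrix.smul_apply, smul_eq_mul, norm_mul, mul_comm C]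
    exact mul_le_mul_of_nonneg_left (h3 i j) (norm_nonneg _)
  choose w hw hw1 hw2 using h1
  refine ⟨fun s i j => w i j s, hw, ?_⟩
  have h2 : ∀ᶠ s in 𝓝[≠] s₀, ∀ i j, (v s ≠ 0 ∧ N s i j = v s * w i j s) :=
    eventually_all.2 fun i => eventually_all.2 fun j =>
      (hw1 i j).and ((hw2 i j).filter_mono nhdsWithin_le_nhds)
  filter_upwards [h2, hA] with s h3 h4
  ext i j
  have h5 := (h3 i j).2
  rw [← h4, Matrix.smul_apply, smul_eq_mul] at h5
  exact mul_left_cancel₀ (h3 i j).1 h5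

/-- the entries of a Hermitian matrix are bounded by its eigenvalues -/
theorem herm_entry_bound {n : Type*} [Fintype n] [DecidableEq n] {A : Matrix n n ℂ}
    (hA : A.IsHermitian) {R : ℝ} (hR : ∀ z, A.charpoly.eval z = 0 → ‖z‖ ≤ R) (i j : n) :
    ‖A i j‖ ^ 2 ≤ Fintype.card n * R ^ 2 := by
  have h1 : Matrix.trace (A * A) = ((∑ i, hA.eigenvalues i ^ 2 : ℝ) : ℂ) := by
    have h2 := hA.spectral_theorem
    set U : Matrix n n ℂ := (hA.eigenvectorUnitary : Matrix n n ℂ) with hU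
    have h3 : A = U * Matrix.diagonal (fun i => (hA.eigenvalues i : ℂ)) * Uᴴ := by
      conv_lhs => rw [h2]
      rfl
    have h4 : Uᴴ * U = 1 := by
      exact Unitary.coe_star_mul_self hA.eigenvectorUnitary
    rw [Matrix.trace]
    calc Matrix.trace (A * A) = Matrix.trace (U * (Matrix.diagonal (fun i => (hA.eigenvalues i : ℂ)) *
          (Uᴴ * U) * Matrix.diagonal (fun i => (hA.eigenvalues i : ℂ))) * Uᴴ) := by
          conv_lhs => rw [h3]
          simp only [Matrix.mul_assoc]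
      _ = _ := by
          rw [h4, Matrix.mul_one, Matrix.trace_mul_comm, ← Matrix.mul_assoc, h4, Matrix.one_mul,
            Matrix.diagonal_mul_diagonal, Matrix.trace_diagonal]
          push_cast
          exact Finset.sum_congr rfl fun i _ => by ring
  have h2 : Matrix.trace (A * A) = ((∑ i, ∑ j, ‖A i j‖ ^ 2 : ℝ) : ℂ) := by
    rw [Matrix.trace]
    push_cast
    refine Finset.sum_congr rfl fun i _ => ?_
    rw [Matrix.diag_apply, Matrix.mul_apply]
    refine Finset.sum_congr rfl fun j _ => ?_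
    have h3 : A j i = conj (A i j) := (hA.apply j i).symm
    rw [h3, Complex.mul_conj, Complex.normSq_eq_norm_sq]
    push_cast
    rfl
  have h3 : (∑ i, ∑ j, ‖A i j‖ ^ 2 : ℝ) = ∑ i, hA.eigenvalues i ^ 2 := by
    rw [h1] at h2
    exact_mod_cast h2.symm
  have h4 : ∀ k, hA.eigenvalues k ^ 2 ≤ R ^ 2 := by
    intro k
    have h5 : A.charpoly.eval ((hA.eigenvalues k : ℝ) : ℂ) = 0 := by
      rw [hA.charpoly_eq, eval_prod]
      exact Finset.prod_eq_zero (Finset.mem_univ k) (by simp)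
    have h6 := hR _ h5
    rw [Complex.norm_real, Real.norm_eq_abs] at h6
    rw [← sq_abs]
    exact pow_le_pow_left₀ (abs_nonneg _) h6 2
  calc ‖A i j‖ ^ 2 ≤ ∑ j, ‖A i j‖ ^ 2 :=
        Finset.single_le_sum (f := fun j => ‖A i j‖ ^ 2) (fun _ _ => by positivity) (Finset.mem_univ j)
    _ ≤ ∑ i, ∑ j, ‖A i j‖ ^ 2 :=
        Finset.single_le_sum (f := fun i => ∑ j, ‖A i j‖ ^ 2)
          (fun _ _ => Finset.sum_nonneg fun _ _ => by positivity) (Finset.mem_univ i)
    _ = ∑ i, hA.eigenvalues i ^ 2 := h3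
    _ ≤ ∑ _i : n, R ^ 2 := Finset.sum_le_sum fun k _ => h4 k
    _ = Fintype.card n * R ^ 2 := by rw [Finset.sum_const, Finset.card_univ, nsmul_eq_mul]

end Vale.Agent.P256.H283
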