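import Mathlib.RingTheory.Algebraic.Integral
import Mathlib.Analysis.Analytic.IsolatedZeros
import Mathlib.Analysis.Analytic.Constructions
import Mathlib.Analysis.Complex.Basic
import Mathlib.Order.Filter.Germ.Basic
import Mathlib.Topology.Germ
import Mathlib.Analysis.SpecialFunctions.Sqrt

/-!
# P256, n = 4 (helper283): algebraic functions of one real variable near a point

`Alg s₀ f` : the function `f : ℝ → ℂ` satisfies a nontrivial polynomial equation over `ℂ[s]` near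
`s₀` (outside of `s₀`). Closure under the algebraic operations and under taking roots.
`NA s₀ f` : `f` is real-analytic at `s₀` and algebraic.
-/

set_option linter.all false

open Filter Topology Polynomial
open scoped ComplexConjugate

namespace Vale.Agent.P256.H283

/-- germs at `s₀` of functions defined outside of `s₀` -/
abbrev Gm (s₀ : ℝ) : Type := Germ (𝓝[≠] s₀) ℂ

/-- the constants -/
def cst (s₀ : ℝ) : ℂ →+* Gm s₀ where
  toFun c := ((fun _ : ℝ => c : ℝ → ℂ) : Gm s₀)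
  map_one' := rfl
  map_mul' _ _ := rfl
  map_zero' := rfl
  map_add' _ _ := rfl

/-- the ring homomorphism from the polynomials in `s` to the germs -/
noncomputable def pol (s₀ : ℝ) : ℂ[X] →+* Gm s₀ :=
  eval₂RingHom (cst s₀) ((fun s : ℝ => (s : ℂ) : ℝ → ℂ) : Gm s₀)

theorem pol_eq (s₀ : ℝ) (p : ℂ[X]) : pol s₀ p = ((fun s : ℝ => p.eval (s : ℂ) : ℝ → ℂ) : Gm s₀) := by
  induction p using Polynomial.induction_on' with
  | add p q hp hq =>
    rw [map_add, hp, hq]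
    apply Germ.coe_eq.2
    exact Eventually.of_forall fun s => by simp
  | monomial n a =>
    have h1 : pol s₀ (monomial n a) = cst s₀ a * ((fun s : ℝ => (s : ℂ) : ℝ → ℂ) : Gm s₀) ^ n := by
      simp [pol, eval₂_monomial]
    have h2 : ((fun s : ℝ => (s : ℂ) : ℝ → ℂ) : Gm s₀) ^ n =
        ((fun s : ℝ => (s : ℂ) ^ n : ℝ → ℂ) : Gm s₀) := rfl
    rw [h1, h2]
    apply Germ.coe_eq.2
    exact Eventually.of_forall fun s => by simp

/-- `f` is algebraic near `s₀` -/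
def Alg (s₀ : ℝ) (f : ℝ → ℂ) : Prop :=
  ∃ P : ℂ[X][X], P ≠ 0 ∧ ∀ᶠ s : ℝ in 𝓝[≠] s₀, (P.map (evalRingHom (s : ℂ))).eval (f s) = 0

noncomputable instance algG (s₀ : ℝ) : Algebra ℂ[X] (Gm s₀) := (pol s₀).toAlgebra

theorem aeval_germ (s₀ : ℝ) (f : ℝ → ℂ) (P : ℂ[X][X]) :
    aeval (f : Gm s₀) P =
      ((fun s : ℝ => (P.map (evalRingHom (s : ℂ))).eval (f s) : ℝ → ℂ) : Gm s₀) := by
  induction P using Polynomial.induction_on' with
  | add p q hp hq =>
    rw [map_add, hp, hq]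
    apply Germ.coe_eq.2
    exact Eventually.of_forall fun s => by simp
  | monomial n a =>
    have h1 : aeval (f : Gm s₀) (monomial n a) = pol s₀ a * (f : Gm s₀) ^ n := by
      rw [aeval_monomial]
      rfl
    have h2 : (f : Gm s₀) ^ n = ((fun s : ℝ => f s ^ n : ℝ → ℂ) : Gm s₀) := rfl
    rw [h1, h2, pol_eq]
    apply Germ.coe_eq.2
    exact Eventually.of_forall fun s => by simp

theorem alg_iff {s₀ : ℝ} {f : ℝ → ℂ} : Alg s₀ f ↔ IsAlgebraic ℂ[X] (f : Gm s₀) := by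
  constructor
  · rintro ⟨P, hP, h⟩
    exact ⟨P, hP, by
      rw [aeval_germ]
      exact Germ.coe_eq.2 h⟩
  · rintro ⟨P, hP, h⟩
    refine ⟨P, hP, ?_⟩
    rw [aeval_germ] at h
    exact Germ.coe_eq.1 h

variable {s₀ : ℝ} {f g : ℝ → ℂ}

theorem Alg.congr (hf : Alg s₀ f) (h : ∀ᶠ s in 𝓝[≠] s₀, g s = f s) : Alg s₀ g := by
  rw [alg_iff] at hf ⊢
  have h1 : (g : Gm s₀) = f := Germ.coe_eq.2 h
  rwa [h1]

theorem Alg.const (c : ℂ) : Alg s₀ fun _ => c :=
  ⟨X - C (C c), X_sub_C_ne_zero _, Eventually.of_forall fun s => by simp⟩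

theorem Alg.id : Alg s₀ fun s => (s : ℂ) :=
  ⟨X - C X, X_sub_C_ne_zero _, Eventually.of_forall fun s => by simp⟩

theorem Alg.add (hf : Alg s₀ f) (hg : Alg s₀ g) : Alg s₀ fun s => f s + g s := by
  rw [alg_iff] at hf hg ⊢
  exact hf.add hg

theorem Alg.mul (hf : Alg s₀ f) (hg : Alg s₀ g) : Alg s₀ fun s => f s * g s := by
  rw [alg_iff] at hf hg ⊢
  exact hf.mul hg

theorem Alg.neg (hf : Alg s₀ f) : Alg s₀ fun s => -f s := by
  rw [alg_iff] at hf ⊢
  exact hf.neg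

theorem Alg.sub (hf : Alg s₀ f) (hg : Alg s₀ g) : Alg s₀ fun s => f s - g s := by
  rw [alg_iff] at hf hg ⊢
  exact hf.sub hg

theorem Alg.pow (hf : Alg s₀ f) (n : ℕ) : Alg s₀ fun s => f s ^ n := by
  rw [alg_iff] at hf ⊢
  exact hf.pow n

theorem Alg.sum {ι : Type*} {t : Finset ι} {F : ι → ℝ → ℂ} (h : ∀ i ∈ t, Alg s₀ (F i)) :
    Alg s₀ fun s => ∑ i ∈ t, F i s := by
  classical
  induction t using Finset.induction_on with
  | empty => simpa using Alg.const (0 : ℂ)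
  | insert a t ha ih =>
    simp only [Finset.sum_insert ha]
    exact (h a (Finset.mem_insert_self _ _)).add (ih fun i hi => h i (Finset.mem_insert_of_mem hi))

theorem Alg.prod {ι : Type*} {t : Finset ι} {F : ι → ℝ → ℂ} (h : ∀ i ∈ t, Alg s₀ (F i)) :
    Alg s₀ fun s => ∏ i ∈ t, F i s := by
  classical
  induction t using Finset.induction_on with
  | empty => simpa using Alg.const (1 : ℂ)
  | insert a t ha ih =>
    simp only [Finset.prod_insert ha]
    exact (h a (Finset.mem_insert_self _ _)).mul (ih fun i hi => h i (Finset.mem_insert_of_mem hi))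

/-- the algebra of the germs of analytic algebraic functions -/
noncomputable def OA (s₀ : ℝ) : Subalgebra ℂ[X] (Gm s₀) where
  carrier := {x | IsAlgebraic ℂ[X] x ∧ ∃ f : ℝ → ℂ, AnalyticAt ℝ f s₀ ∧ x = (f : Gm s₀)}
  mul_mem' := by
    rintro x y ⟨hx, f, hf, rfl⟩ ⟨hy, g, hg, rfl⟩
    exact ⟨hx.mul hy, fun s => f s * g s, hf.mul hg, rfl⟩
  add_mem' := by
    rintro x y ⟨hx, f, hf, rfl⟩ ⟨hy, g, hg, rfl⟩
    exact ⟨hx.add hy, fun s => f s + g s, hf.add hg, rfl⟩
  algebraMap_mem' := by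
    intro p
    refine ⟨isAlgebraic_algebraMap p, fun s => p.eval (s : ℂ), ?_, pol_eq s₀ p⟩
    have h1 : AnalyticAt ℝ (fun s : ℝ => (s : ℂ)) s₀ := Complex.ofRealCLM.analyticAt s₀
    simp only [Polynomial.eval_eq_sum_range]
    refine Finset.analyticAt_fun_sum _ fun k _ => ?_
    exact analyticAt_const.mul (h1.pow k)

instance nzd (s₀ : ℝ) : NoZeroDivisors (OA s₀) where
  eq_zero_or_eq_zero_of_mul_eq_zero := by
    rintro ⟨x, hx, f, hf, rfl⟩ ⟨y, hy, g, hg, rfl⟩ h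
    have h1 : ∀ᶠ s in 𝓝[≠] s₀, f s * g s = 0 := Germ.coe_eq.1 (congrArg Subtype.val h)
    rcases hf.eventually_eq_zero_or_eventually_ne_zero with h2 | h2
    · left
      apply Subtype.ext
      exact Germ.coe_eq.2 (h2.filter_mono nhdsWithin_le_nhds)
    · right
      apply Subtype.ext
      refine Germ.coe_eq.2 ?_
      filter_upwards [h1, h2] with s hs hs2
      exact (mul_eq_zero.1 hs).resolve_left hs2

/-- a root of a monic polynomial with algebraic analytic coefficients is algebraic -/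
theorem Alg.root {d : ℕ} {c : ℕ → ℝ → ℂ} (hc : ∀ k, k < d → Alg s₀ (c k))
    (hca : ∀ k, k < d → AnalyticAt ℝ (c k) s₀) (hf : ∀ᶠ s in 𝓝[≠] s₀,
    f s ^ d + ∑ k ∈ Finset.range d, c k s * f s ^ k = 0) : Alg s₀ f := by
  rw [alg_iff]
  let A := OA s₀
  have hA : ∀ x : A, IsAlgebraic ℂ[X] (x : Gm s₀) := fun x => x.2.1
  have hAlg : Algebra.IsAlgebraic ℂ[X] A := ⟨fun x => by
    obtain ⟨P, hP, h⟩ := hA x
    refine ⟨P, hP, ?_⟩
    apply Subtype.ext
    rw [ZeroMemClass.coe_zero, ← h]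
    exact (Polynomial.aeval_algebraMap_apply (Gm s₀) x P).symm⟩
  have hint : IsIntegral A (f : Gm s₀) := by
    classical
    let cc : ℕ → A := fun k => if h : k < d then ⟨(c k : Gm s₀), alg_iff.1 (hc k h), c k, hca k h, rfl⟩
      else 0
    let p : A[X] := X ^ d + ∑ k ∈ Finset.range d, C (cc k) * X ^ k
    have hdeg : (∑ k ∈ Finset.range d, C (cc k) * X ^ k : A[X]).degree < d := by
      rw [Polynomial.degree_lt_iff_coeff_zero]
      intro m hm
      rw [finsetSum_coeff]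
      refine Finset.sum_eq_zero fun k hk => ?_
      rw [coeff_C_mul_X_pow, if_neg]
      have := Finset.mem_range.1 hk
      omega
    refine ⟨p, monic_X_pow_add hdeg, ?_⟩
    have h1 : eval₂ (algebraMap A (Gm s₀)) (f : Gm s₀) p =
        (f : Gm s₀) ^ d + ∑ k ∈ Finset.range d, (cc k : Gm s₀) * (f : Gm s₀) ^ k := by
      simp only [p, eval₂_add, eval₂_X_pow, eval₂_finsetSum, eval₂_mul, eval₂_C]
      rfl
    rw [h1]
    have h2 : ∑ k ∈ Finset.range d, (cc k : Gm s₀) * (f : Gm s₀) ^ k =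
        ∑ k ∈ Finset.range d, (c k : Gm s₀) * (f : Gm s₀) ^ k := by
      refine Finset.sum_congr rfl fun k hk => ?_
      simp only [cc, dif_pos (Finset.mem_range.1 hk)]
    rw [h2]
    have h3 : (f : Gm s₀) ^ d + ∑ k ∈ Finset.range d, (c k : Gm s₀) * (f : Gm s₀) ^ k =
        ((fun s => f s ^ d + ∑ k ∈ Finset.range d, c k s * f s ^ k : ℝ → ℂ) : Gm s₀) := by
      have h4 : ∑ k ∈ Finset.range d, (c k : Gm s₀) * (f : Gm s₀) ^ k =
          ((fun s => ∑ k ∈ Finset.range d, c k s * f s ^ k : ℝ → ℂ) : Gm s₀) := by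
        have h5 : ∀ t : Finset ℕ, ∑ k ∈ t, (c k : Gm s₀) * (f : Gm s₀) ^ k =
            ((fun s => ∑ k ∈ t, c k s * f s ^ k : ℝ → ℂ) : Gm s₀) := by
          intro t
          induction t using Finset.induction_on with
          | empty => simp only [Finset.sum_empty]; rfl
          | insert a t ha ih =>
            rw [Finset.sum_insert ha, ih]
            simp only [Finset.sum_insert ha]
            rfl
        exact h5 _
      rw [h4]
      rfl
    rw [h3]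
    exact Germ.coe_eq.2 hf
  exact IsIntegral.trans_isAlgebraic ℂ[X] hint

theorem Alg.conj (hf : Alg s₀ f) : Alg s₀ fun s => conj (f s) := by
  obtain ⟨P, hP, h⟩ := hf
  let σ : ℂ →+* ℂ := starRingEnd ℂ
  have hσ : Function.Injective σ := (starRingEnd ℂ).injective
  refine ⟨P.map (mapRingHom σ), ?_, ?_⟩
  · intro h0
    exact hP ((Polynomial.map_injective _ (Polynomial.map_injective _ hσ)) (by rw [h0, Polynomial.map_zero]))
  · filter_upwards [h] with s hs
    have h1 : ∀ a : ℂ[X], (a.map σ).eval (s : ℂ) = σ (a.eval (s : ℂ)) := by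
      intro a
      rw [← Polynomial.eval_map_apply]
      simp [σ, Complex.conj_ofReal]
    have h2 : (P.map (mapRingHom σ)).map (evalRingHom (s : ℂ)) =
        (P.map (evalRingHom (s : ℂ))).map σ := by
      rw [Polynomial.map_map, Polynomial.map_map]
      congr 1
      ext a
      · simp [σ]
      · simp [σ, Complex.conj_ofReal]
    rw [h2]
    have h3 : ((P.map (evalRingHom (s : ℂ))).map σ).eval (σ (f s)) =
        σ ((P.map (evalRingHom (s : ℂ))).eval (f s)) := by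
      rw [Polynomial.eval_map_apply]
    have h4 : (starRingEnd ℂ) (f s) = σ (f s) := rfl
    rw [h4, h3, hs, map_zero]

theorem Alg.inv (hf : Alg s₀ f) (h0 : ∀ᶠ s in 𝓝[≠] s₀, f s ≠ 0) : Alg s₀ fun s => (f s)⁻¹ := by
  rw [alg_iff] at hf ⊢
  obtain ⟨P, hP, h⟩ := hf
  refine ⟨P.reverse, ?_, ?_⟩
  · intro h1
    exact hP (Polynomial.reverse_eq_zero.1 h1)
  · have h1 : (f : Gm s₀) * ((fun s => (f s)⁻¹ : ℝ → ℂ) : Gm s₀) = 1 := by
      apply Germ.coe_eq.2
      filter_upwards [h0] with s hs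
      exact mul_inv_cancel₀ hs
    letI : Invertible (f : Gm s₀) := ⟨((fun s => (f s)⁻¹ : ℝ → ℂ) : Gm s₀), by rw [mul_comm]; exact h1, h1⟩
    have h2 : (⅟(f : Gm s₀)) = ((fun s => (f s)⁻¹ : ℝ → ℂ) : Gm s₀) := rfl
    rw [← h2]
    exact (Polynomial.eval₂_reverse_eq_zero_iff (algebraMap ℂ[X] (Gm s₀)) (f : Gm s₀) P).2 h

theorem Alg.div (hf : Alg s₀ f) (hg : Alg s₀ g) (h0 : ∀ᶠ s in 𝓝[≠] s₀, g s ≠ 0) :
    Alg s₀ fun s => f s / g s := by
  simp only [div_eq_mul_inv]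
  exact hf.mul (hg.inv h0)

/-! ### Analytic and algebraic functions -/

/-- analytic and algebraic at `s₀` -/
structure NA (s₀ : ℝ) (f : ℝ → ℂ) : Prop where
  an : AnalyticAt ℝ f s₀
  alg : Alg s₀ f

theorem NA.congr (hf : NA s₀ f) (h : ∀ᶠ s in 𝓝 s₀, g s = f s) : NA s₀ g :=
  ⟨hf.an.congr (h.mono fun _ hs => hs.symm), hf.alg.congr (h.filter_mono nhdsWithin_le_nhds)⟩

theorem NA.const (c : ℂ) : NA s₀ fun _ => c := ⟨analyticAt_const, Alg.const c⟩

theorem NA.id : NA s₀ fun s => (s : ℂ) := ⟨Complex.ofRealCLM.analyticAt s₀, Alg.id⟩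

theorem NA.add (hf : NA s₀ f) (hg : NA s₀ g) : NA s₀ fun s => f s + g s :=
  ⟨hf.an.add hg.an, hf.alg.add hg.alg⟩

theorem NA.sub (hf : NA s₀ f) (hg : NA s₀ g) : NA s₀ fun s => f s - g s :=
  ⟨hf.an.sub hg.an, hf.alg.sub hg.alg⟩

theorem NA.mul (hf : NA s₀ f) (hg : NA s₀ g) : NA s₀ fun s => f s * g s :=
  ⟨hf.an.mul hg.an, hf.alg.mul hg.alg⟩

theorem NA.neg (hf : NA s₀ f) : NA s₀ fun s => -f s := ⟨hf.an.neg, hf.alg.neg⟩

theorem NA.pow (hf : NA s₀ f) (n : ℕ) : NA s₀ fun s => f s ^ n := ⟨hf.an.pow n, hf.alg.pow n⟩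

theorem NA.sum {ι : Type*} {t : Finset ι} {F : ι → ℝ → ℂ} (h : ∀ i ∈ t, NA s₀ (F i)) :
    NA s₀ fun s => ∑ i ∈ t, F i s :=
  ⟨Finset.analyticAt_fun_sum _ fun i hi => (h i hi).an, Alg.sum fun i hi => (h i hi).alg⟩

theorem NA.prod {ι : Type*} {t : Finset ι} {F : ι → ℝ → ℂ} (h : ∀ i ∈ t, NA s₀ (F i)) :
    NA s₀ fun s => ∏ i ∈ t, F i s :=
  ⟨Finset.analyticAt_fun_prod _ fun i hi => (h i hi).an, Alg.prod fun i hi => (h i hi).alg⟩

theorem NA.conj (hf : NA s₀ f) : NA s₀ fun s => conj (f s) :=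
  ⟨(Complex.conjCLE.toContinuousLinearMap.analyticAt _).comp hf.an, hf.alg.conj⟩

theorem NA.inv (hf : NA s₀ f) (h0 : f s₀ ≠ 0) : NA s₀ fun s => (f s)⁻¹ :=
  ⟨hf.an.inv h0, hf.alg.inv ((hf.an.continuousAt.eventually_ne h0).filter_mono nhdsWithin_le_nhds)⟩

theorem NA.div (hf : NA s₀ f) (hg : NA s₀ g) (h0 : g s₀ ≠ 0) : NA s₀ fun s => f s / g s := by
  simp only [div_eq_mul_inv]
  exact hf.mul (hg.inv h0)

/-- an analytic quotient of algebraic functions -/
theorem NA.of_mul {u v : ℝ → ℂ} (hg : AnalyticAt ℝ g s₀) (hu : Alg s₀ u) (hv : Alg s₀ v)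
    (h0 : ∀ᶠ s in 𝓝[≠] s₀, v s ≠ 0) (h : ∀ᶠ s in 𝓝[≠] s₀, v s * g s = u s) : NA s₀ g := by
  refine ⟨hg, (hu.div hv h0).congr ?_⟩
  filter_upwards [h0, h] with s h1 h2
  rw [← h2, mul_div_cancel_left₀ _ h1]

/-- the square root of a positive function -/
theorem NA.sqrt (hf : NA s₀ f) (hre : ∀ᶠ s in 𝓝 s₀, (f s).im = 0) (h0 : 0 < (f s₀).re) :
    NA s₀ fun s => ((Real.sqrt (f s).re : ℝ) : ℂ) := by
  have h1 : AnalyticAt ℝ (fun s => (f s).re) s₀ := (Complex.reCLM.analyticAt _).comp hf.an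
  have h2 : AnalyticAt ℝ (fun s => Real.sqrt (f s).re) s₀ := by
    have h3 : AnalyticAt ℝ Real.sqrt (f s₀).re :=
      ContDiffAt.analyticAt (Real.contDiffAt_sqrt (n := ⊤) h0.ne')
    exact AnalyticAt.comp (g := Real.sqrt) (f := fun s => (f s).re) h3 h1
  refine ⟨(Complex.ofRealCLM.analyticAt _).comp h2, ?_⟩
  have h4 : ∀ᶠ s in 𝓝 s₀, 0 < (f s).re := continuousAt_const.eventually_lt h1.continuousAt h0
  refine Alg.root (d := 2) (c := fun k s => if k = 0 then -f s else 0) ?_ ?_ ?_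
  · intro k _
    by_cases hk : k = 0
    · simp only [hk, if_true]
      exact hf.alg.neg
    · simp only [hk, if_false]
      exact Alg.const 0
  · intro k _
    by_cases hk : k = 0
    · simp only [hk, if_true]
      exact hf.an.neg
    · simp only [hk, if_false]
      exact analyticAt_const
  · filter_upwards [h4.filter_mono nhdsWithin_le_nhds, hre.filter_mono nhdsWithin_le_nhds] with s hs hs2
    simp only [Finset.sum_range_succ, Finset.sum_range_zero, if_true, pow_zero, mul_one, zero_add,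
      one_ne_zero, if_false, zero_mul, add_zero]
    rw [← Complex.ofReal_pow, Real.sq_sqrt hs.le]
    apply Complex.ext
    · simp
    · simp [hs2]

/-! ### Orders -/

theorem analytic_order {f : ℝ → ℂ} (hf : AnalyticAt ℝ f s₀) (h : ¬ ∀ᶠ s in 𝓝 s₀, f s = 0) :
    ∃ (n : ℕ) (g : ℝ → ℂ), AnalyticAt ℝ g s₀ ∧ g s₀ ≠ 0 ∧
      ∀ᶠ s in 𝓝 s₀, f s = ((s - s₀ : ℝ) : ℂ) ^ n * g s := by
  obtain ⟨n, g, hg, hg0, h1⟩ := (hf.exists_eventuallyEq_pow_smul_nonzero_iff).2 h
  refine ⟨n, g, hg, hg0, ?_⟩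
  filter_upwards [h1] with s hs
  rw [hs, Complex.real_smul]
  push_cast
  rfl

end Vale.Agent.P256.H283
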