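import Vale.Agent.P256.H283.Affine
import Vale.Agent.P256.H909.Gen

/-!
# P256, n = 4 (helper283): existence of Hermitian pencils in the exact affine gauge
-/

set_option linter.all false

open Filter Topology Matrix

namespace Vale.Agent.P256.H283

open Vale.Agent.P256.H858

/-- **Existence of the pencil in the affine gauge**, at any base vector `f` (in four variables). -/
theorem affine_irr {n d : ℕ} {p : MvPolynomial (Fin n) ℝ} {e f g k : Fin n → ℝ}
    (hp : IsHyperbolic p e) (hirr : Irreducible p) (hd : p.IsHomogeneous d) (F : Fr4 e f g k) :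
    ∃ (β : Fin d → ℝ) (A0 A1 : Matrix {i // β i = 0} {i // β i = 0} ℂ)
      (G : ℝ → Matrix (Fin d) (Fin d) ℂ), A0.IsHermitian ∧ A1.IsHermitian ∧ NM 0 G ∧
      IsRep p e f g k β G 0 ∧ ∀ᶠ s in 𝓝 (0 : ℝ), blk β (G s) = A0 + (s : ℂ) • A1 := by
  obtain ⟨β, G, hG, h1, h2⟩ := Vale.Agent.P256.H909.hvn_irr hp hirr hd
    (f := f) (g := g) (k := k) (fun x => ⟨F.c0 x, F.cb x, F.ch x, F.ca x, by
      have := F.span x
      rw [add_assoc, add_comm (F.ch x • k), ← add_assoc]
      exact this⟩)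
  have hR : IsRep p e f g k β G 0 := by
    filter_upwards [h1, h2] with s h3 h4
    exact ⟨h3, fun x0 b h => h4 x0 b h⟩
  obtain ⟨A0, A1, G', hA0, hA1, hG', hR', hb⟩ := affine_gauge hp F hR hG
  exact ⟨β, A0, A1, G', hA0, hA1, hG', hR', hb⟩

end Vale.Agent.P256.H283
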