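import Vale.Agent.P256.H283.Gauge
import Vale.Agent.P256.H858.Loc

/-!
# P256, n = 4 (helper283): the exact affine gauge of a Hermitian pencil at any base point
-/

set_option linter.all false

open Filter Topology Polynomial Matrix
open scoped ComplexConjugate

namespace Vale.Agent.P256.H283

open Vale.Agent.P256.H858

variable {s₀ : ℝ}

theorem charpoly_neg_eval {n : Type*} [Fintype n] [DecidableEq n] (A : Matrix n n ℂ) (t : ℂ) :
    (-A).charpoly.eval t = (t • (1 : Matrix n n ℂ) + A).det := by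
  rw [Matrix.eval_charpoly, sub_neg_eq_add, Matrix.smul_one_eq_diagonal]
  rfl

theorem charpoly_neg_ext {n : Type*} [Fintype n] [DecidableEq n] {A B : Matrix n n ℂ}
    (h : ∀ t : ℝ, ((t : ℂ) • (1 : Matrix n n ℂ) + A).det = ((t : ℂ) • (1 : Matrix n n ℂ) + B).det) :
    (-A).charpoly = (-B).charpoly := by
  refine Polynomial.eq_of_infinite_eval_eq _ _ ?_
  refine Set.Infinite.mono (s := Set.range fun t : ℝ => (t : ℂ)) ?_
    (Set.infinite_range_of_injective Complex.ofReal_injective)
  rintro _ ⟨t, rfl⟩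
  rw [Set.mem_setOf_eq, charpoly_neg_eval, charpoly_neg_eval, h t]

/-- block unitary extension of a unitary on the indices with `β = 0` -/
noncomputable def bext {ι : Type*} (β : ι → ℝ) [DecidableEq ι]
    (V : Matrix {i // β i = 0} {i // β i = 0} ℂ) : Matrix ι ι ℂ :=
  (Matrix.fromBlocks V 0 0 (1 : Matrix {i // ¬ β i = 0} {i // ¬ β i = 0} ℂ)).submatrix
    (Equiv.sumCompl fun i => β i = 0).symm (Equiv.sumCompl fun i => β i = 0).symm

section

variable {ι : Type} [Fintype ι] [DecidableEq ι] {β : ι → ℝ}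

theorem bext_mul (V W : Matrix {i // β i = 0} {i // β i = 0} ℂ) :
    bext β V * bext β W = bext β (V * W) := by
  unfold bext
  rw [submatrix_mul_equiv, fromBlocks_multiply]
  simp only [Matrix.mul_zero, Matrix.zero_mul, add_zero, zero_add, Matrix.mul_one]

theorem bext_one : bext β (1 : Matrix {i // β i = 0} {i // β i = 0} ℂ) = 1 := by
  unfold bext
  rw [fromBlocks_one, submatrix_one_equiv]

theorem bext_ct (V : Matrix {i // β i = 0} {i // β i = 0} ℂ) : (bext β V)ᴴ = bext β Vᴴ := by
  unfold bext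
  rw [conjTranspose_submatrix, fromBlocks_conjTranspose]
  simp only [conjTranspose_zero, conjTranspose_one]

theorem bext_apply_of {V : Matrix {i // β i = 0} {i // β i = 0} ℂ} {i j : ι} (hi : β i = 0)
    (hj : β j = 0) : bext β V i j = V ⟨i, hi⟩ ⟨j, hj⟩ := by
  unfold bext
  rw [submatrix_apply, Equiv.sumCompl_symm_apply_of_pos (p := fun i => β i = 0) hi,
    Equiv.sumCompl_symm_apply_of_pos (p := fun i => β i = 0) hj, fromBlocks_apply₁₁]

theorem bext_apply_pn {V : Matrix {i // β i = 0} {i // β i = 0} ℂ} {i j : ι} (hi : β i = 0)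
    (hj : ¬ β j = 0) : bext β V i j = 0 := by
  unfold bext
  rw [submatrix_apply, Equiv.sumCompl_symm_apply_of_pos (p := fun i => β i = 0) hi,
    Equiv.sumCompl_symm_apply_of_neg (p := fun i => β i = 0) hj, fromBlocks_apply₁₂]
  rfl

theorem bext_apply_np {V : Matrix {i // β i = 0} {i // β i = 0} ℂ} {i j : ι} (hi : ¬ β i = 0)
    (hj : β j = 0) : bext β V i j = 0 := by
  unfold bext
  rw [submatrix_apply, Equiv.sumCompl_symm_apply_of_neg (p := fun i => β i = 0) hi,
    Equiv.sumCompl_symm_apply_of_pos (p := fun i => β i = 0) hj, fromBlocks_apply₂₁]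
  rfl

theorem bext_apply_nn {V : Matrix {i // β i = 0} {i // β i = 0} ℂ} {i j : ι} (hi : ¬ β i = 0)
    (hj : ¬ β j = 0) : bext β V i j = if i = j then 1 else 0 := by
  unfold bext
  rw [submatrix_apply, Equiv.sumCompl_symm_apply_of_neg (p := fun i => β i = 0) hi,
    Equiv.sumCompl_symm_apply_of_neg (p := fun i => β i = 0) hj, fromBlocks_apply₂₂,
    Matrix.one_apply]
  simp only [Subtype.mk.injEq]

/-- the block extension commutes with `diagonal β` -/
theorem bext_diag (V : Matrix {i // β i = 0} {i // β i = 0} ℂ) :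
    bext β V * Matrix.diagonal (fun i => (β i : ℂ)) =
      Matrix.diagonal (fun i => (β i : ℂ)) * bext β V := by
  ext i j
  rw [Matrix.mul_diagonal, Matrix.diagonal_mul]
  by_cases hi : β i = 0 <;> by_cases hj : β j = 0
  · rw [hi, hj]
    ring
  · rw [bext_apply_pn hi hj]
    ring
  · rw [bext_apply_np hi hj]
    ring
  · rw [bext_apply_nn hi hj]
    by_cases h : i = j
    · subst h
      ring
    · rw [if_neg h]
      ring

theorem blk_mul_bext (W : Matrix {i // β i = 0} {i // β i = 0} ℂ) (A : Matrix ι ι ℂ) :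
    blk β (A * bext β W) = blk β A * W := by
  ext i j
  simp only [blk, submatrix_apply, Matrix.mul_apply]
  rw [← Fintype.sum_subtype_add_sum_subtype (fun x => β x = 0) (fun x => A i.1 x * bext β W x j.1)]
  have h2 : ∑ x : {x // ¬ β x = 0}, A i.1 x.1 * bext β W x.1 j.1 = 0 := by
    refine Finset.sum_eq_zero fun x _ => ?_
    rw [bext_apply_np x.2 j.2, mul_zero]
  rw [h2, add_zero]
  refine Finset.sum_congr rfl fun x _ => ?_
  rw [bext_apply_of x.2 j.2]

theorem blk_bext_mul (W : Matrix {i // β i = 0} {i // β i = 0} ℂ) (A : Matrix ι ι ℂ) :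
    blk β (bext β W * A) = W * blk β A := by
  ext i j
  simp only [blk, submatrix_apply, Matrix.mul_apply]
  rw [← Fintype.sum_subtype_add_sum_subtype (fun x => β x = 0) (fun x => bext β W i.1 x * A x j.1)]
  have h2 : ∑ x : {x // ¬ β x = 0}, bext β W i.1 x.1 * A x.1 j.1 = 0 := by
    refine Finset.sum_eq_zero fun x _ => ?_
    rw [bext_apply_pn i.2 x.2, zero_mul]
  rw [h2, add_zero]
  refine Finset.sum_congr rfl fun x _ => ?_
  rw [bext_apply_of i.2 x.2]

/-- the block of a conjugated matrix -/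
theorem blk_bext (V : Matrix {i // β i = 0} {i // β i = 0} ℂ) (M : Matrix ι ι ℂ) :
    blk β (bext β V * M * (bext β V)ᴴ) = V * blk β M * Vᴴ := by
  rw [bext_ct, blk_mul_bext, blk_bext_mul]

theorem bext_na {V : ℝ → Matrix {i // β i = 0} {i // β i = 0} ℂ} (hV : NM s₀ V) :
    NM s₀ fun s => bext β (V s) := by
  intro i j
  by_cases hi : β i = 0 <;> by_cases hj : β j = 0
  · simp only [bext_apply_of hi hj]
    exact hV _ _
  · simp only [bext_apply_pn hi hj]
    exact NA.const 0
  · simp only [bext_apply_np hi hj]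
    exact NA.const 0
  · simp only [bext_apply_nn hi hj]
    exact NA.const _

/-- **The exact affine gauge** of a Hermitian pencil at any base point: after an analytic family of
unitary changes which commute with the diagonal matrix at the base point, the block of the analytic
matrix on the kernel of the base matrix is affine. -/
theorem affine_gauge {n : ℕ} {p : MvPolynomial (Fin n) ℝ} {e f g k : Fin n → ℝ}
    {G : ℝ → Matrix ι ι ℂ} (hp : IsHyperbolic p e) (F : Fr4 e f g k)
    (hR : IsRep p e f g k β G s₀) (hG : NM s₀ G) :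
    ∃ (A0 A1 : Matrix {i // β i = 0} {i // β i = 0} ℂ) (G' : ℝ → Matrix ι ι ℂ),
      A0.IsHermitian ∧ A1.IsHermitian ∧ NM s₀ G' ∧ IsRep p e f g k β G' s₀ ∧
      ∀ᶠ s in 𝓝 s₀, blk β (G' s) = A0 + (s : ℂ) • A1 := by
  obtain ⟨A0, A1, hA0, hA1, hdet⟩ := loc_pencil hp F hR
  have hB : NM s₀ fun s => blk β (G s) := hG.submatrix _ _
  have hL : NM s₀ fun s => A0 + (s : ℂ) • A1 := (NM.const _).add (NM.smul NA.id (NM.const _))
  have hBh : ∀ᶠ s in 𝓝[≠] s₀, (-blk β (G s)).IsHermitian := by
    filter_upwards [hR.filter_mono nhdsWithin_le_nhds] with s hs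
    exact (hs.1.submatrix _).neg
  have hLh : ∀ s : ℝ, (-(A0 + (s : ℂ) • A1)).IsHermitian := by
    intro s
    refine IsHermitian.neg (hA0.add ?_)
    rw [IsHermitian, conjTranspose_smul, hA1]
    congr 1
    exact Complex.conj_ofReal s
  obtain ⟨V, hV, hV2⟩ := herm_conj hB.neg hL.neg hBh (Eventually.of_forall hLh)
    (((hdet.filter_mono (nhdsWithin_le_nhds (s := {s₀}ᶜ))).mono fun s hs => by
      refine charpoly_neg_ext fun t => ?_
      have h1 := hs t 1
      rw [Complex.ofReal_one, one_smul, one_smul] at h1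
      exact h1).frequently)
  refine ⟨A0, A1, fun s => bext β (V s) * G s * (bext β (V s))ᴴ, hA0, hA1,
    ((bext_na hV).mul hG).mul (bext_na hV).ct, ?_, ?_⟩
  · filter_upwards [hR, hV2] with s h1 h2
    have hW : bext β (V s) * (bext β (V s))ᴴ = 1 := by
      rw [bext_ct, bext_mul, h2.2.1, bext_one]
    refine ⟨?_, ?_⟩
    · exact isHermitian_mul_mul_conjTranspose (bext β (V s)) h1.1
    · intro x0 b h
      rw [h1.2 x0 b h]
      congr 1
      have h3 : (x0 : ℂ) • (1 : Matrix ι ι ℂ) + (b : ℂ) • Matrix.diagonal (fun i => (β i : ℂ)) +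
          (h : ℂ) • (bext β (V s) * G s * (bext β (V s))ᴴ) =
          bext β (V s) * ((x0 : ℂ) • (1 : Matrix ι ι ℂ) +
            (b : ℂ) • Matrix.diagonal (fun i => (β i : ℂ)) + (h : ℂ) • G s) * (bext β (V s))ᴴ := by
        rw [Matrix.mul_add, Matrix.mul_add, Matrix.add_mul, Matrix.add_mul, Matrix.mul_smul,
          Matrix.mul_smul, Matrix.mul_smul, Matrix.smul_mul, Matrix.smul_mul, Matrix.smul_mul,
          Matrix.mul_one, hW, bext_diag, Matrix.mul_assoc (Matrix.diagonal _), hW, Matrix.mul_one]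
      have h9 : (bext β (V s)).det * ((bext β (V s))ᴴ).det = 1 := by
        rw [← Matrix.det_mul, hW, Matrix.det_one]
      rw [h3, Matrix.det_mul, Matrix.det_mul]
      linear_combination -((x0 : ℂ) • (1 : Matrix ι ι ℂ) +
            (b : ℂ) • Matrix.diagonal (fun i => (β i : ℂ)) + (h : ℂ) • G s).det * h9
  · filter_upwards [hV2] with s h2
    rw [blk_bext]
    have h3 := h2.2.2
    rw [Matrix.mul_neg, Matrix.neg_mul, neg_inj] at h3
    exact h3.symm

end

end Vale.Agent.P256.H283
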