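import Vale.Agent.P256.H283.Herm
import Mathlib.Analysis.Meromorphic.Basic
import Mathlib.Algebra.MvPolynomial.Eval
import Mathlib.RingTheory.MvPolynomial.Homogeneous
import Mathlib.Topology.Algebra.MvPolynomial
import Mathlib.Topology.Instances.Matrix

/-!
# P256, n = 4 (helper283): the gauge of a Hermitian pencil over germs

Last step of the construction of analytic (Nash) Hermitian pencils along families of planes:
from a pencil with meromorphic entries off the base point to a pencil with a constant diagonal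
first matrix and analytic entries.
-/

set_option linter.all false

open Filter Topology Polynomial Matrix
open scoped ComplexConjugate

namespace Vale.Agent.P256.H283

variable {s₀ : ℝ} {f g : ℝ → ℂ}

/-- meromorphic and algebraic at `s₀` -/
def NMe (s₀ : ℝ) (f : ℝ → ℂ) : Prop :=
  ∃ (n : ℕ) (g : ℝ → ℂ), NA s₀ g ∧ ∀ᶠ s in 𝓝[≠] s₀, ((s - s₀ : ℝ) : ℂ) ^ n * f s = g s

theorem NMe.of_na (hf : NA s₀ f) : NMe s₀ f :=
  ⟨0, f, hf, Eventually.of_forall fun s => by rw [pow_zero, one_mul]⟩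

theorem NMe.neg (hf : NMe s₀ f) : NMe s₀ fun s => -f s := by
  obtain ⟨n, h, hh, h1⟩ := hf
  refine ⟨n, fun s => -h s, hh.neg, ?_⟩
  filter_upwards [h1] with s hs
  rw [mul_neg, hs]

/-- restriction of a complex meromorphic algebraic function to the real line -/
theorem NMe.of_mer {F : ℂ → ℂ} (hF : MeromorphicAt F (s₀ : ℂ))
    (hal : ∃ P : ℂ[X][X], P ≠ 0 ∧ ∀ᶠ z in 𝓝[≠] (s₀ : ℂ), (P.map (evalRingHom z)).eval (F z) = 0) :
    NMe s₀ fun s => F s := by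
  obtain ⟨n, hn⟩ := hF
  have htend : Tendsto (fun s : ℝ => (s : ℂ)) (𝓝[≠] s₀) (𝓝[≠] (s₀ : ℂ)) := by
    refine tendsto_nhdsWithin_iff.2 ⟨?_, ?_⟩
    · exact (Complex.continuous_ofReal.tendsto s₀).mono_left nhdsWithin_le_nhds
    · filter_upwards [ne_of_punct s₀] with s hs
      exact fun h => hs (Complex.ofReal_injective h)
  have hA : Alg s₀ fun s => F s := by
    obtain ⟨P, hP, h⟩ := hal
    exact ⟨P, hP, htend.eventually h⟩
  refine ⟨n, fun s : ℝ => ((s : ℂ) - s₀) ^ n * F s, ⟨?_, ?_⟩, ?_⟩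
  · have h1 : AnalyticAt ℝ (fun z : ℂ => (z - (s₀ : ℂ)) ^ n • F z) ((s₀ : ℝ) : ℂ) :=
      hn.restrictScalars
    have h2 : AnalyticAt ℝ (fun s : ℝ => (s : ℂ)) s₀ := Complex.ofRealCLM.analyticAt s₀
    have h3 := AnalyticAt.comp (g := fun z : ℂ => (z - (s₀ : ℂ)) ^ n • F z)
      (f := fun s : ℝ => (s : ℂ)) (x := s₀) h1 h2
    exact h3
  · exact ((Alg.id.sub (Alg.const _)).pow n).mul hA
  · refine Eventually.of_forall fun s => ?_
    push_cast
    rfl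

/-- a bounded meromorphic function extends -/
theorem NMe.ext_bdd (hf : NMe s₀ f) {C : ℝ} (hb : ∀ᶠ s in 𝓝[≠] s₀, ‖f s‖ ≤ C) :
    ∃ g : ℝ → ℂ, NA s₀ g ∧ ∀ᶠ s in 𝓝[≠] s₀, f s = g s := by
  obtain ⟨n, h, hh, h1⟩ := hf
  have hv0 : ¬ ∀ᶠ s in 𝓝 s₀, ((s - s₀ : ℝ) : ℂ) ^ n = 0 := by
    intro h2
    have h3 := (h2.filter_mono (nhdsWithin_le_nhds (s := {s₀}ᶜ))).and (pw_ne s₀ n)
    obtain ⟨s, hs⟩ := h3.exists
    exact hs.2 hs.1
  obtain ⟨w, hw, h2, h3⟩ := NA.bdd_quot hh (pw_na s₀ n) hv0 C (by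
    filter_upwards [h1, hb] with s h4 h5
    rw [← h4, norm_mul, mul_comm C]
    exact mul_le_mul_of_nonneg_left h5 (norm_nonneg _))
  refine ⟨w, hw, ?_⟩
  filter_upwards [h1, h2, h3.filter_mono nhdsWithin_le_nhds] with s h4 h5 h6
  rw [h6] at h4
  exact mul_left_cancel₀ h5 h4

/-- meromorphic matrix families -/
def MMe {m n : Type*} (s₀ : ℝ) (M : ℝ → Matrix m n ℂ) : Prop := ∀ i j, NMe s₀ (fun s => M s i j)

theorem MMe.neg {m n : Type*} {M : ℝ → Matrix m n ℂ} (hM : MMe s₀ M) : MMe s₀ fun s => -M s :=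
  fun i j => (hM i j).neg

theorem MMe.ext_bdd {m n : Type*} [Finite m] [Finite n] {M : ℝ → Matrix m n ℂ} (hM : MMe s₀ M)
    {C : ℝ} (hb : ∀ᶠ s in 𝓝[≠] s₀, ∀ i j, ‖M s i j‖ ≤ C) :
    ∃ M' : ℝ → Matrix m n ℂ, NM s₀ M' ∧ ∀ᶠ s in 𝓝[≠] s₀, M s = M' s := by
  have h1 : ∀ i j, ∃ g : ℝ → ℂ, NA s₀ g ∧ ∀ᶠ s in 𝓝[≠] s₀, M s i j = g s := fun i j =>
    (hM i j).ext_bdd (hb.mono fun s hs => hs i j)
  choose g hg hg2 using h1
  refine ⟨fun s i j => g i j s, hg, ?_⟩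
  have h2 : ∀ᶠ s in 𝓝[≠] s₀, ∀ i j, M s i j = g i j s :=
    eventually_all.2 fun i => eventually_all.2 fun j => hg2 i j
  filter_upwards [h2] with s hs
  ext i j
  exact hs i j

/-- a meromorphic Hermitian family with bounded spectrum extends -/
theorem MMe.ext_herm {n : Type*} [Fintype n] [DecidableEq n] {M : ℝ → Matrix n n ℂ}
    (hM : MMe s₀ M) (hh : ∀ᶠ s in 𝓝[≠] s₀, (M s).IsHermitian) {R : ℝ}
    (hR : ∀ᶠ s in 𝓝[≠] s₀, ∀ z, (M s).charpoly.eval z = 0 → ‖z‖ ≤ R) :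
    ∃ M' : ℝ → Matrix n n ℂ, NM s₀ M' ∧ ∀ᶠ s in 𝓝[≠] s₀, M s = M' s := by
  refine hM.ext_bdd (C := Real.sqrt (Fintype.card n * R ^ 2)) ?_
  filter_upwards [hh, hR] with s h1 h2 i j
  have h3 := herm_entry_bound h1 h2 i j
  exact Real.le_sqrt_of_sq_le h3

/-- **Gauge.** A meromorphic Hermitian pencil `A s, G s` with constant spectrum of `A s` and bounded
spectrum of `G s` becomes `diagonal β, G' s` with `G'` analytic, after an analytic family of
unitary changes. -/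
theorem gauge {n : Type} [Fintype n] [DecidableEq n] {A G : ℝ → Matrix n n ℂ} (hA : MMe s₀ A)
    (hG : MMe s₀ G) (hAh : ∀ᶠ s in 𝓝[≠] s₀, (A s).IsHermitian)
    (hGh : ∀ᶠ s in 𝓝[≠] s₀, (G s).IsHermitian) {P₀ : ℂ[X]}
    (hP : ∀ᶠ s in 𝓝[≠] s₀, (A s).charpoly = P₀) {R : ℝ}
    (hR : ∀ᶠ s in 𝓝[≠] s₀, ∀ z, (G s).charpoly.eval z = 0 → ‖z‖ ≤ R) :
    ∃ (β : n → ℝ) (G' U : ℝ → Matrix n n ℂ), NM s₀ G' ∧ NM s₀ U ∧
      (∀ᶠ s in 𝓝 s₀, (G' s).IsHermitian ∧ (U s)ᴴ * U s = 1 ∧ U s * (U s)ᴴ = 1) ∧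
      (∀ᶠ s in 𝓝[≠] s₀, A s = U s * Matrix.diagonal (fun i => (β i : ℂ)) * (U s)ᴴ ∧
        G s = U s * G' s * (U s)ᴴ) ∧ P₀ = ∏ i, (X - C (β i : ℂ)) := by
  have hP0 : P₀ ≠ 0 := by
    obtain ⟨s, hs⟩ := hP.exists
    rw [← hs]
    exact (charpoly_monic _).ne_zero
  obtain ⟨RA, hRA⟩ : ∃ RA : ℝ, ∀ z, P₀.eval z = 0 → ‖z‖ ≤ RA := by
    obtain ⟨RA, h⟩ := (Polynomial.finite_setOf_isRoot hP0).isBounded.exists_norm_le
    exact ⟨RA, fun z hz => h z hz⟩
  obtain ⟨A', hA', hAA⟩ := hA.ext_herm hAh (R := RA) (by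
    filter_upwards [hP] with s hs z hz
    rw [hs] at hz
    exact hRA z hz)
  obtain ⟨G₁, hG₁, hGG⟩ := hG.ext_herm hGh hR
  have hA'h : ∀ᶠ s in 𝓝[≠] s₀, (A' s).IsHermitian := by
    filter_upwards [hAh, hAA] with s h1 h2
    rwa [← h2]
  have hG₁h : ∀ᶠ s in 𝓝[≠] s₀, (G₁ s).IsHermitian := by
    filter_upwards [hGh, hGG] with s h1 h2
    rwa [← h2]
  have hG₁h' : ∀ᶠ s in 𝓝 s₀, (G₁ s).IsHermitian := mat_eq_of_punct hG₁.ct hG₁ hG₁h
  obtain ⟨U, lam, hU, hl, _, hUl⟩ := rellich_herm hA' hA'h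
  have hch : ∀ (U : Matrix n n ℂ) (d : n → ℂ), Uᴴ * U = 1 →
      (U * Matrix.diagonal d * Uᴴ).charpoly = ∏ i, (X - C (d i)) := by
    intro U d hU
    rw [Matrix.charpoly_mul_comm, ← Matrix.mul_assoc, hU, Matrix.one_mul, Matrix.charpoly_diagonal]
  have hprod : ∀ᶠ s in 𝓝[≠] s₀, P₀ = ∏ i, (X - C ((lam i s : ℝ) : ℂ)) := by
    filter_upwards [hP, hAA, hUl.filter_mono nhdsWithin_le_nhds] with s h1 h2 h3
    rw [← h1, h2, h3.2.2, hch _ _ h3.1]
  obtain ⟨s₁, hs₁⟩ := hprod.exists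
  obtain ⟨σ, hσ⟩ := match_roots (a := fun i s => ((lam i s : ℝ) : ℂ))
    (b := fun i _ => ((lam i s₁ : ℝ) : ℂ)) (fun i => (hl i).an) (fun i => analyticAt_const)
    ((hprod.mono fun s hs => by rw [← hs, ← hs₁]).frequently)
  refine ⟨fun i => lam (σ i) s₁, fun s => (U s)ᴴ * G₁ s * U s, U, (hU.ct.mul hG₁).mul hU, hU, ?_, ?_,
    ?_⟩
  · filter_upwards [hG₁h', hUl] with s h1 h2
    exact ⟨isHermitian_conjTranspose_mul_mul (U s) h1, h2.1, h2.2.1⟩
  · filter_upwards [hAA, hGG, hUl.filter_mono nhdsWithin_le_nhds, hσ.filter_mono nhdsWithin_le_nhds]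
      with s h1 h2 h3 h4
    constructor
    · rw [h1, h3.2.2]
      congr 3
      funext i
      exact (h4 i).symm
    · rw [h2]
      calc G₁ s = (U s * (U s)ᴴ) * G₁ s * (U s * (U s)ᴴ) := by
            rw [h3.2.1, Matrix.one_mul, Matrix.mul_one]
        _ = U s * ((U s)ᴴ * G₁ s * U s) * (U s)ᴴ := by simp only [Matrix.mul_assoc]
  · rw [hs₁]
    exact (Equiv.prod_comp σ (fun i => X - C ((lam i s₁ : ℝ) : ℂ))).symm

/-! ### Pencils representing a polynomial along planes -/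

theorem eval_smul_hom {m d : ℕ} {p : MvPolynomial (Fin m) ℝ} (hd : p.IsHomogeneous d) (r : ℝ)
    (x : Fin m → ℝ) : MvPolynomial.eval (r • x) p = r ^ d * MvPolynomial.eval x p := by
  rw [MvPolynomial.eval_eq', MvPolynomial.eval_eq', Finset.mul_sum]
  refine Finset.sum_congr rfl fun k hk => ?_
  have h1 : ∑ i, k i = d := by
    have h2 := hd (MvPolynomial.mem_support_iff.1 hk)
    rw [← Finsupp.degree_eq_sum, Finsupp.degree_eq_weight_one]
    exact h2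
  have h2 : ∏ i, (r • x) i ^ k i = r ^ d * ∏ i, x i ^ k i := by
    simp only [Pi.smul_apply, smul_eq_mul, mul_pow, Finset.prod_mul_distrib]
    rw [Finset.prod_pow_eq_pow_sum, h1]
  rw [h2]
  ring

/-- the evaluation along a plane -/
noncomputable def qe {m : ℕ} (p : MvPolynomial (Fin m) ℝ) (e f g k : Fin m → ℝ) (s t x u : ℝ) : ℝ :=
  MvPolynomial.eval (t • e + x • f + u • (s • g + k)) p

theorem qe_hom {m d : ℕ} {p : MvPolynomial (Fin m) ℝ} (hd : p.IsHomogeneous d)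
    (e f g k : Fin m → ℝ) (s t x u r : ℝ) :
    qe p e f g k s (r * t) (r * x) (r * u) = r ^ d * qe p e f g k s t x u := by
  unfold qe
  rw [← eval_smul_hom hd]
  congr 1
  simp only [smul_add, smul_smul, mul_assoc]

theorem qe_cont_x {m : ℕ} (p : MvPolynomial (Fin m) ℝ) (e f g k : Fin m → ℝ) (s t u : ℝ) :
    Continuous fun x : ℝ => ((qe p e f g k s t x u : ℝ) : ℂ) := by
  have h1 : Continuous fun x : ℝ => t • e + x • f + u • (s • g + k) := by fun_prop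
  exact Complex.continuous_ofReal.comp ((MvPolynomial.continuous_eval p).comp h1)

theorem qe_cont_s {m : ℕ} (p : MvPolynomial (Fin m) ℝ) (e f g k : Fin m → ℝ) (t x u : ℝ) :
    Continuous fun s : ℝ => ((qe p e f g k s t x u : ℝ) : ℂ) := by
  have h1 : Continuous fun s : ℝ => t • e + x • f + u • (s • g + k) := by fun_prop
  exact Complex.continuous_ofReal.comp ((MvPolynomial.continuous_eval p).comp h1)

theorem qe_cont_su {m : ℕ} (p : MvPolynomial (Fin m) ℝ) (e f g k : Fin m → ℝ) (t x : ℝ) :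
    Continuous fun y : ℝ × ℝ => qe p e f g k y.1 t x y.2 := by
  have h1 : Continuous fun y : ℝ × ℝ => t • e + x • f + y.2 • (y.1 • g + k) := by fun_prop
  exact (MvPolynomial.continuous_eval p).comp h1

theorem det_cont_x {d : ℕ} (c : ℂ) (T A G : Matrix (Fin d) (Fin d) ℂ) :
    Continuous fun x : ℝ => c * (T + (x : ℂ) • A + G).det := by
  refine continuous_const.mul (Continuous.matrix_det ?_)
  exact (continuous_const.add (Complex.continuous_ofReal.smul continuous_const)).add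
          continuous_const

theorem lim_eq {h₁ h₂ : ℝ → ℂ} (hc1 : Continuous h₁) (hc2 : Continuous h₂) {a : ℝ}
    (h : ∀ x, x ≠ a → h₁ x = h₂ x) : h₁ a = h₂ a :=
  (eq_of_punct hc1.continuousAt hc2.continuousAt (by
    filter_upwards [ne_of_punct a] with x hx
    exact h x hx)).self_of_nhds

/-- homogenisation of a determinantal representation -/
theorem det_homog {m d : ℕ} {p : MvPolynomial (Fin m) ℝ} (hd : p.IsHomogeneous d)
    {e f g k : Fin m → ℝ} {s : ℝ} {A G : Matrix (Fin d) (Fin d) ℂ} {c : ℂ}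
    (hs : ∀ t u : ℝ, ((qe p e f g k s t 1 u : ℝ) : ℂ) =
      c * ((t : ℂ) • (1 : Matrix (Fin d) (Fin d) ℂ) + A + (u : ℂ) • G).det) (t x u : ℝ) :
    ((qe p e f g k s t x u : ℝ) : ℂ) =
      c * ((t : ℂ) • (1 : Matrix (Fin d) (Fin d) ℂ) + (x : ℂ) • A + (u : ℂ) • G).det := by
  have key : ∀ x : ℝ, x ≠ 0 → ((qe p e f g k s t x u : ℝ) : ℂ) =
      c * ((t : ℂ) • (1 : Matrix (Fin d) (Fin d) ℂ) + (x : ℂ) • A + (u : ℂ) • G).det := by
    intro x hx
    have hxc : (x : ℂ) ≠ 0 := by exact_mod_cast hx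
    have h1 : qe p e f g k s t x u = x ^ d * qe p e f g k s (x⁻¹ * t) 1 (x⁻¹ * u) := by
      rw [← qe_hom hd]
      rw [mul_one, mul_inv_cancel_left₀ hx, mul_inv_cancel_left₀ hx]
    have h2 : ((t : ℂ) • (1 : Matrix (Fin d) (Fin d) ℂ) + (x : ℂ) • A + (u : ℂ) • G) =
        (x : ℂ) • ((((x⁻¹ * t : ℝ)) : ℂ) • (1 : Matrix (Fin d) (Fin d) ℂ) + A +
          (((x⁻¹ * u : ℝ)) : ℂ) • G) := by
      rw [smul_add, smul_add, smul_smul, smul_smul]
      push_cast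
      rw [mul_inv_cancel_left₀ hxc, mul_inv_cancel_left₀ hxc]
    rw [h1, h2, Matrix.det_smul, Fintype.card_fin, Complex.ofReal_mul, hs]
    push_cast
    ring
  by_cases hx : x = 0
  · subst hx
    exact lim_eq (h₁ := fun x : ℝ => ((qe p e f g k s t x u : ℝ) : ℂ))
      (h₂ := fun x : ℝ => c * ((t : ℂ) • (1 : Matrix (Fin d) (Fin d) ℂ) + (x : ℂ) • A +
        (u : ℂ) • G).det) (qe_cont_x p e f g k s t u) (det_cont_x c _ A _) key
  · exact key x hx

/-- **The Hermitian pencil along a family of planes.** If off `s₀` the polynomial `p` on the planes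
spanned by `e`, `f`, `s g + k` is represented by a meromorphic algebraic Hermitian pencil, then near
`s₀` (including `s₀`) it is represented by a pencil with a constant diagonal matrix at `f` and an
analytic algebraic matrix at `s g + k`. -/
theorem pencil_gauge {m d : ℕ} {p : MvPolynomial (Fin m) ℝ} (hd : p.IsHomogeneous d)
    {e f g k : Fin m → ℝ} (he : MvPolynomial.eval e p ≠ 0)
    {A G : ℝ → Matrix (Fin d) (Fin d) ℂ} (hA : MMe s₀ A) (hG : MMe s₀ G)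
    (hAh : ∀ᶠ s in 𝓝[≠] s₀, (A s).IsHermitian) (hGh : ∀ᶠ s in 𝓝[≠] s₀, (G s).IsHermitian)
    (hdet : ∀ᶠ s in 𝓝[≠] s₀, ∀ t u : ℝ, ((qe p e f g k s t 1 u : ℝ) : ℂ) =
      ((MvPolynomial.eval e p : ℝ) : ℂ) *
        ((t : ℂ) • (1 : Matrix (Fin d) (Fin d) ℂ) + A s + (u : ℂ) • G s).det) :
    ∃ (β : Fin d → ℝ) (G' : ℝ → Matrix (Fin d) (Fin d) ℂ), NM s₀ G' ∧
      (∀ᶠ s in 𝓝 s₀, (G' s).IsHermitian) ∧
      ∀ᶠ s in 𝓝 s₀, ∀ t x u : ℝ, ((qe p e f g k s t x u : ℝ) : ℂ) =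
        ((MvPolynomial.eval e p : ℝ) : ℂ) * ((t : ℂ) • (1 : Matrix (Fin d) (Fin d) ℂ) +
          (x : ℂ) • Matrix.diagonal (fun i => (β i : ℂ)) + (u : ℂ) • G' s).det := by
  have he' : ((MvPolynomial.eval e p : ℝ) : ℂ) ≠ 0 := by exact_mod_cast he
  -- homogeneous version off the base point
  have hdet2 : ∀ᶠ s in 𝓝[≠] s₀, ∀ t x u : ℝ, ((qe p e f g k s t x u : ℝ) : ℂ) =
      ((MvPolynomial.eval e p : ℝ) : ℂ) *
        ((t : ℂ) • (1 : Matrix (Fin d) (Fin d) ℂ) + (x : ℂ) • A s + (u : ℂ) • G s).det := by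
    filter_upwards [hdet] with s hs t x u
    exact det_homog hd hs t x u
  -- the charpoly of `-A`
  have hcA : ∀ s, ∀ t : ℝ, (-A s).charpoly.eval (t : ℂ) =
      ((t : ℂ) • (1 : Matrix (Fin d) (Fin d) ℂ) + A s).det := by
    intro s t
    rw [Matrix.eval_charpoly, sub_neg_eq_add, Matrix.smul_one_eq_diagonal]
    rfl
  have hcG : ∀ s, ∀ t : ℝ, (-G s).charpoly.eval (t : ℂ) =
      ((t : ℂ) • (1 : Matrix (Fin d) (Fin d) ℂ) + G s).det := by
    intro s t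
    rw [Matrix.eval_charpoly, sub_neg_eq_add, Matrix.smul_one_eq_diagonal]
    rfl
  have hAev : ∀ᶠ s in 𝓝[≠] s₀, ∀ t : ℝ, (-A s).charpoly.eval (t : ℂ) =
      ((MvPolynomial.eval (t • e + f) p : ℝ) : ℂ) / ((MvPolynomial.eval e p : ℝ) : ℂ) := by
    filter_upwards [hdet2] with s hs t
    have h1 := hs t 1 0
    rw [Complex.ofReal_one, one_smul, Complex.ofReal_zero, zero_smul, add_zero] at h1
    rw [hcA, eq_div_iff he', mul_comm, ← h1]
    unfold qe
    rw [one_smul, zero_smul, add_zero]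
  obtain ⟨s₁, hs₁⟩ := hAev.exists
  have hP : ∀ᶠ s in 𝓝[≠] s₀, (-A s).charpoly = (-A s₁).charpoly := by
    filter_upwards [hAev] with s hs
    refine Polynomial.eq_of_infinite_eval_eq _ _ ?_
    refine Set.Infinite.mono (s := Set.range fun t : ℝ => (t : ℂ)) ?_
      (Set.infinite_range_of_injective Complex.ofReal_injective)
    rintro _ ⟨t, rfl⟩
    rw [Set.mem_setOf_eq, hs t, hs₁ t]
  -- the bound of the spectrum of `-G`
  obtain ⟨δ, hδ, hδ2⟩ : ∃ δ > 0, ∀ s τ : ℝ, |s - s₀| < δ → |τ| < δ → qe p e f g k s 1 0 τ ≠ 0 := by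
    have hc := qe_cont_su p e f g k 1 0
    have h0 : qe p e f g k s₀ 1 0 0 ≠ 0 := by
      unfold qe
      rw [one_smul, zero_smul, zero_smul, add_zero, add_zero]
      exact he
    have h1 : ∀ᶠ y in 𝓝 ((s₀, 0) : ℝ × ℝ), qe p e f g k y.1 1 0 y.2 ≠ 0 :=
      (hc.continuousAt (x := ((s₀, 0) : ℝ × ℝ))).eventually_ne h0
    obtain ⟨δ, hδ, h2⟩ := Metric.eventually_nhds_iff.1 h1
    refine ⟨δ, hδ, fun s τ h3 h4 => h2 (y := (s, τ)) ?_⟩
    rw [Prod.dist_eq, max_lt_iff, Real.dist_eq, Real.dist_eq, sub_zero]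
    exact ⟨h3, h4⟩
  have hR : ∀ᶠ s in 𝓝[≠] s₀, ∀ z, (-G s).charpoly.eval z = 0 → ‖z‖ ≤ δ⁻¹ := by
    have hnear : ∀ᶠ s in 𝓝[≠] s₀, |s - s₀| < δ := by
      have : ∀ᶠ s in 𝓝 s₀, |s - s₀| < δ := by
        filter_upwards [Metric.ball_mem_nhds s₀ hδ] with s hs
        rwa [Metric.mem_ball, Real.dist_eq] at hs
      exact this.filter_mono nhdsWithin_le_nhds
    filter_upwards [hdet2, hGh, hnear] with s hs h1 h2 z hz
    have h3 : z.im = 0 := herm_root (A := -G s) h1.neg hz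
    have h4 : z = ((z.re : ℝ) : ℂ) := by
      apply Complex.ext
      · simp
      · simpa using h3
    rw [h4, hcG] at hz
    rw [h4, Complex.norm_real, Real.norm_eq_abs]
    by_contra hcon
    push Not at hcon
    have hz0 : z.re ≠ 0 := by
      intro h5
      rw [h5, abs_zero] at hcon
      exact absurd (inv_pos.2 hδ) (not_lt.2 hcon.le)
    have h5 := hs z.re 0 1
    rw [Complex.ofReal_zero, zero_smul, add_zero, Complex.ofReal_one, one_smul, hz, mul_zero] at h5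
    have h6 : qe p e f g k s z.re 0 1 = 0 := by exact_mod_cast h5
    have h7 : qe p e f g k s z.re 0 1 = z.re ^ d * qe p e f g k s 1 0 (z.re⁻¹) := by
      rw [← qe_hom hd, mul_one, mul_zero, mul_inv_cancel₀ hz0]
    rw [h7] at h6
    refine hδ2 s z.re⁻¹ h2 ?_ ((mul_eq_zero.1 h6).resolve_left (pow_ne_zero _ hz0))
    rw [abs_inv]
    exact inv_lt_of_inv_lt₀ hδ hcon
  obtain ⟨β, G', U, hG', hU, h1, h2, _⟩ := gauge hA.neg hG.neg (hAh.mono fun s hs => hs.neg)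
    (hGh.mono fun s hs => hs.neg) hP hR
  refine ⟨fun i => -β i, fun s => -G' s, hG'.neg, h1.mono fun s hs => hs.1.neg, ?_⟩
  have hfin : ∀ᶠ s in 𝓝[≠] s₀, ∀ t x u : ℝ, ((qe p e f g k s t x u : ℝ) : ℂ) =
        ((MvPolynomial.eval e p : ℝ) : ℂ) * ((t : ℂ) • (1 : Matrix (Fin d) (Fin d) ℂ) +
          (x : ℂ) • Matrix.diagonal (fun i => ((-β i : ℝ) : ℂ)) + (u : ℂ) • (-G' s)).det := by
    filter_upwards [hdet2, h1.filter_mono nhdsWithin_le_nhds, h2] with s h3 h4 h5 t x u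
    rw [h3]
    congr 1
    have h6 : A s = U s * Matrix.diagonal (fun i => ((-β i : ℝ) : ℂ)) * (U s)ᴴ := by
      have h7 : Matrix.diagonal (fun i => ((-β i : ℝ) : ℂ)) =
          -Matrix.diagonal (fun i => (β i : ℂ)) := by
        ext i j
        by_cases hij : i = j
        · subst hij
          simp
        · simp [Matrix.diagonal_apply_ne _ hij]
      rw [h7, Matrix.mul_neg, Matrix.neg_mul, ← h5.1, neg_neg]
    have h7 : G s = U s * (-G' s) * (U s)ᴴ := by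
      rw [Matrix.mul_neg, Matrix.neg_mul, ← h5.2, neg_neg]
    have h8 : (t : ℂ) • (1 : Matrix (Fin d) (Fin d) ℂ) + (x : ℂ) • A s + (u : ℂ) • G s =
        U s * ((t : ℂ) • (1 : Matrix (Fin d) (Fin d) ℂ) +
          (x : ℂ) • Matrix.diagonal (fun i => ((-β i : ℝ) : ℂ)) + (u : ℂ) • (-G' s)) * (U s)ᴴ := by
      rw [Matrix.mul_add, Matrix.mul_add, Matrix.add_mul, Matrix.add_mul, Matrix.mul_smul,
        Matrix.mul_smul, Matrix.mul_smul, Matrix.smul_mul, Matrix.smul_mul, Matrix.smul_mul,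
        Matrix.mul_one, h4.2.2, ← h6, ← h7]
    have h9 : (U s).det * ((U s)ᴴ).det = 1 := by
      rw [← Matrix.det_mul, h4.2.2, Matrix.det_one]
    rw [h8, Matrix.det_mul, Matrix.det_mul]
    linear_combination ((t : ℂ) • (1 : Matrix (Fin d) (Fin d) ℂ) +
          (x : ℂ) • Matrix.diagonal (fun i => ((-β i : ℝ) : ℂ)) + (u : ℂ) • (-G' s)).det * h9
  have hall : ∀ t x u : ℝ, ((qe p e f g k s₀ t x u : ℝ) : ℂ) =
        ((MvPolynomial.eval e p : ℝ) : ℂ) * ((t : ℂ) • (1 : Matrix (Fin d) (Fin d) ℂ) +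
          (x : ℂ) • Matrix.diagonal (fun i => ((-β i : ℝ) : ℂ)) + (u : ℂ) • (-G' s₀)).det := by
    intro t x u
    have hc1 := qe_cont_s p e f g k t x u
    have hc2 : NA s₀ fun s => ((MvPolynomial.eval e p : ℝ) : ℂ) *
        ((t : ℂ) • (1 : Matrix (Fin d) (Fin d) ℂ) +
          (x : ℂ) • Matrix.diagonal (fun i => ((-β i : ℝ) : ℂ)) + (u : ℂ) • (-G' s)).det := by
      refine (NA.const _).mul (NM.det ?_)
      exact ((NM.const _).add (NM.const _)).add (NM.smul (NA.const _) hG'.neg)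
    exact (eq_of_punct hc1.continuousAt hc2.an.continuousAt
      (hfin.mono fun s hs => hs t x u)).self_of_nhds
  filter_upwards [eventually_nhdsWithin_iff.1 hfin] with s hs
  by_cases hss : s = s₀
  · subst hss
    exact hall
  · exact hs hss

end Vale.Agent.P256.H283
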