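import Vale.Agent.P256.H283.Alg
import Mathlib.Analysis.Calculus.InverseFunctionTheorem.ContDiff
import Mathlib.RingTheory.Polynomial.Vieta
import Mathlib.RingTheory.Coprime.Lemmas
import Mathlib.Topology.Algebra.Polynomial
import Mathlib.LinearAlgebra.FiniteDimensional.Lemmas
import Mathlib.LinearAlgebra.Complex.FiniteDimensional
import Mathlib.Topology.Algebra.Module.FiniteDimension

/-!
# P256, n = 4 (helper283): orders, bounded quotients, the analytic Hensel lemma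
-/

set_option linter.all false

open Filter Topology Polynomial
open scoped ComplexConjugate

namespace Vale.Agent.P256.H283

variable {s₀ : ℝ} {f g : ℝ → ℂ}

theorem norm_cpow (s t : ℝ) (n : ℕ) : ‖((s - t : ℝ) : ℂ) ^ n‖ = |s - t| ^ n := by
  rw [norm_pow, Complex.norm_real, Real.norm_eq_abs]

theorem ne_of_punct (s₀ : ℝ) : ∀ᶠ s in 𝓝[≠] s₀, s ≠ s₀ := eventually_mem_nhdsWithin

theorem pw_ne (s₀ : ℝ) (n : ℕ) : ∀ᶠ s in 𝓝[≠] s₀, ((s - s₀ : ℝ) : ℂ) ^ n ≠ 0 := by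
  filter_upwards [ne_of_punct s₀] with s hs
  exact pow_ne_zero _ (Complex.ofReal_ne_zero.2 (sub_ne_zero.2 hs))

theorem pw_an (s₀ : ℝ) (n : ℕ) : AnalyticAt ℝ (fun s : ℝ => ((s - s₀ : ℝ) : ℂ) ^ n) s₀ := by
  have h1 : AnalyticAt ℝ (fun s : ℝ => ((s - s₀ : ℝ) : ℂ)) s₀ :=
    (Complex.ofRealCLM.analyticAt _).comp (analyticAt_id.sub analyticAt_const)
  exact h1.pow n

theorem pw_na (s₀ : ℝ) (n : ℕ) : NA s₀ (fun s : ℝ => ((s - s₀ : ℝ) : ℂ) ^ n) := by
  refine ⟨pw_an s₀ n, ?_⟩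
  have h1 : Alg s₀ (fun s : ℝ => (s : ℂ) - (s₀ : ℂ)) := Alg.id.sub (Alg.const _)
  refine (h1.pow n).congr (Eventually.of_forall fun s => ?_)
  push_cast
  rfl

/-- agreement off the point implies agreement near the point -/
theorem eq_of_punct (hf : ContinuousAt f s₀) (hg : ContinuousAt g s₀)
    (h : ∀ᶠ s in 𝓝[≠] s₀, f s = g s) : ∀ᶠ s in 𝓝 s₀, f s = g s := by
  have h0 : f s₀ = g s₀ := by
    have h1 : Tendsto f (𝓝[≠] s₀) (𝓝 (f s₀)) := hf.tendsto.mono_left nhdsWithin_le_nhds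
    have h2 : Tendsto g (𝓝[≠] s₀) (𝓝 (g s₀)) := hg.tendsto.mono_left nhdsWithin_le_nhds
    exact tendsto_nhds_unique (h1.congr' h) h2
  have h3 := eventually_nhdsWithin_iff.1 h
  filter_upwards [h3] with s hs
  by_cases hss : s = s₀
  · rw [hss, h0]
  · exact hs hss

/-- identity theorem, frequently version -/
theorem eq_of_freq (hf : AnalyticAt ℝ f s₀) (hg : AnalyticAt ℝ g s₀)
    (h : ∃ᶠ s in 𝓝[≠] s₀, f s = g s) : ∀ᶠ s in 𝓝 s₀, f s = g s := by
  rcases (hf.sub hg).eventually_eq_zero_or_eventually_ne_zero with h1 | h1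
  · filter_upwards [h1] with s hs
    exact sub_eq_zero.1 hs
  · exfalso
    refine h ?_
    filter_upwards [h1] with s hs h2
    exact hs (by simp [h2])

theorem ord_div (hf : AnalyticAt ℝ f s₀) (n : ℕ) (C : ℝ)
    (hb : ∀ᶠ s in 𝓝[≠] s₀, ‖f s‖ ≤ C * |s - s₀| ^ n) :
    ∃ g : ℝ → ℂ, AnalyticAt ℝ g s₀ ∧ ∀ᶠ s in 𝓝 s₀, f s = ((s - s₀ : ℝ) : ℂ) ^ n * g s := by
  by_cases h : ∀ᶠ s in 𝓝 s₀, f s = 0
  · refine ⟨fun _ => 0, analyticAt_const, ?_⟩
    filter_upwards [h] with s hs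
    rw [hs, mul_zero]
  obtain ⟨k, g, hg, hg0, hk⟩ := analytic_order hf h
  by_cases hkn : n ≤ k
  · refine ⟨fun s => ((s - s₀ : ℝ) : ℂ) ^ (k - n) * g s, (pw_an s₀ _).mul hg, ?_⟩
    filter_upwards [hk] with s hs
    rw [hs, ← mul_assoc, ← pow_add, Nat.add_sub_cancel' hkn]
  · exfalso
    push Not at hkn
    have h1 : ∀ᶠ s in 𝓝[≠] s₀, ‖g s‖ ≤ C * |s - s₀| ^ (n - k) := by
      filter_upwards [hb, hk.filter_mono nhdsWithin_le_nhds, ne_of_punct s₀] with s h2 h3 h4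
      rw [h3, norm_mul, norm_cpow] at h2
      have h5 : 0 < |s - s₀| ^ k := pow_pos (abs_pos.2 (sub_ne_zero.2 h4)) k
      have h6 : |s - s₀| ^ n = |s - s₀| ^ k * |s - s₀| ^ (n - k) := by
        rw [← pow_add, Nat.add_sub_cancel' hkn.le]
      rw [h6] at h2
      have h7 : |s - s₀| ^ k * ‖g s‖ ≤ |s - s₀| ^ k * (C * |s - s₀| ^ (n - k)) := by linarith
      exact le_of_mul_le_mul_left h7 h5
    have h2 : Tendsto (fun s => ‖g s‖) (𝓝[≠] s₀) (𝓝 ‖g s₀‖) :=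
      (hg.continuousAt.norm).tendsto.mono_left nhdsWithin_le_nhds
    have h3 : Tendsto (fun s : ℝ => C * |s - s₀| ^ (n - k)) (𝓝[≠] s₀) (𝓝 0) := by
      have h4 : Continuous (fun s : ℝ => C * |s - s₀| ^ (n - k)) := by fun_prop
      have h5 := (h4.tendsto s₀).mono_left (nhdsWithin_le_nhds (s := {s₀}ᶜ))
      have h6 : C * |s₀ - s₀| ^ (n - k) = 0 := by
        rw [sub_self, abs_zero, zero_pow (by omega), mul_zero]
      rwa [h6] at h5
    have h4 : ‖g s₀‖ ≤ 0 := le_of_tendsto_of_tendsto h2 h3 h1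
    exact hg0 (norm_le_zero_iff.1 h4)

/-- a bounded quotient of analytic functions is analytic -/
theorem bdd_quot {u v : ℝ → ℂ} (hu : AnalyticAt ℝ u s₀) (hv : AnalyticAt ℝ v s₀)
    (hv0 : ¬ ∀ᶠ s in 𝓝 s₀, v s = 0) (C : ℝ) (hb : ∀ᶠ s in 𝓝[≠] s₀, ‖u s‖ ≤ C * ‖v s‖) :
    ∃ w : ℝ → ℂ, AnalyticAt ℝ w s₀ ∧ (∀ᶠ s in 𝓝[≠] s₀, v s ≠ 0) ∧
      ∀ᶠ s in 𝓝 s₀, u s = v s * w s := by
  obtain ⟨n, g, hg, hg0, hn⟩ := analytic_order hv hv0
  have hgb : ∀ᶠ s in 𝓝 s₀, ‖g s‖ ≤ ‖g s₀‖ + 1 :=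
    (hg.continuousAt.norm.eventually_le_const (by linarith : ‖g s₀‖ < ‖g s₀‖ + 1))
  have hgne : ∀ᶠ s in 𝓝 s₀, g s ≠ 0 := hg.continuousAt.eventually_ne hg0
  have hb2 : ∀ᶠ s in 𝓝[≠] s₀, ‖u s‖ ≤ |C| * (‖g s₀‖ + 1) * |s - s₀| ^ n := by
    filter_upwards [hb, hn.filter_mono nhdsWithin_le_nhds, hgb.filter_mono nhdsWithin_le_nhds]
      with s h1 h2 h3
    rw [h2, norm_mul, norm_cpow] at h1
    have h4 : 0 ≤ |s - s₀| ^ n := by positivity
    calc ‖u s‖ ≤ C * (|s - s₀| ^ n * ‖g s‖) := h1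
      _ ≤ |C| * (|s - s₀| ^ n * ‖g s‖) := by
        apply mul_le_mul_of_nonneg_right (le_abs_self C) (by positivity)
      _ ≤ |C| * (|s - s₀| ^ n * (‖g s₀‖ + 1)) := by gcongr
      _ = |C| * (‖g s₀‖ + 1) * |s - s₀| ^ n := by ring
  obtain ⟨w, hw, hw2⟩ := ord_div hu n _ hb2
  refine ⟨fun s => w s / g s, hw.div hg hg0, ?_, ?_⟩
  · filter_upwards [hn.filter_mono nhdsWithin_le_nhds, hgne.filter_mono nhdsWithin_le_nhds,
      pw_ne s₀ n] with s h1 h2 h3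
    rw [h1]
    exact mul_ne_zero h3 h2
  · filter_upwards [hn, hgne, hw2] with s h1 h2 h3
    rw [h1, h3]
    field_simp

theorem NA.ord_div (hf : NA s₀ f) (n : ℕ) (C : ℝ)
    (hb : ∀ᶠ s in 𝓝[≠] s₀, ‖f s‖ ≤ C * |s - s₀| ^ n) :
    ∃ g : ℝ → ℂ, NA s₀ g ∧ ∀ᶠ s in 𝓝 s₀, f s = ((s - s₀ : ℝ) : ℂ) ^ n * g s := by
  obtain ⟨g, hg, h1⟩ := Vale.Agent.P256.H283.ord_div hf.an n C hb
  refine ⟨g, ?_, h1⟩
  refine NA.of_mul hg hf.alg (pw_na s₀ n).alg (pw_ne s₀ n) ?_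
  filter_upwards [h1.filter_mono nhdsWithin_le_nhds] with s hs
  exact hs.symm

/-- (Rd) a bounded quotient of analytic algebraic functions -/
theorem NA.bdd_quot {u v : ℝ → ℂ} (hu : NA s₀ u) (hv : NA s₀ v)
    (hv0 : ¬ ∀ᶠ s in 𝓝 s₀, v s = 0) (C : ℝ) (hb : ∀ᶠ s in 𝓝[≠] s₀, ‖u s‖ ≤ C * ‖v s‖) :
    ∃ w : ℝ → ℂ, NA s₀ w ∧ (∀ᶠ s in 𝓝[≠] s₀, v s ≠ 0) ∧
      ∀ᶠ s in 𝓝 s₀, u s = v s * w s := by
  obtain ⟨w, hw, h1, h2⟩ := Vale.Agent.P256.H283.bdd_quot hu.an hv.an hv0 C hb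
  refine ⟨w, ?_, h1, h2⟩
  refine NA.of_mul hw hu.alg hv.alg h1 ?_
  filter_upwards [h2.filter_mono nhdsWithin_le_nhds] with s hs
  exact hs.symm

/-! ### Monic polynomials with given lower coefficients -/

/-- the monic polynomial `X ^ d + ∑ c i X ^ i` -/
noncomputable def mp (d : ℕ) (c : Fin d → ℂ) : ℂ[X] := X ^ d + ∑ i : Fin d, C (c i) * X ^ (i : ℕ)

theorem low_deg (d : ℕ) (c : Fin d → ℂ) : (∑ i : Fin d, C (c i) * X ^ (i : ℕ) : ℂ[X]).degree < d := by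
  rw [Polynomial.degree_lt_iff_coeff_zero]
  intro m hm
  rw [finsetSum_coeff]
  refine Finset.sum_eq_zero fun k hk => ?_
  rw [coeff_C_mul_X_pow, if_neg]
  have := k.2
  omega

theorem low_coeff (d : ℕ) (c : Fin d → ℂ) (i : Fin d) :
    (∑ i : Fin d, C (c i) * X ^ (i : ℕ) : ℂ[X]).coeff i = c i := by
  rw [finsetSum_coeff, Finset.sum_eq_single i]
  · rw [coeff_C_mul_X_pow, if_pos rfl]
  · intro b _ hb
    rw [coeff_C_mul_X_pow, if_neg]
    intro h
    exact hb (Fin.ext h.symm)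
  · simp

theorem low_eq {d : ℕ} {p : ℂ[X]} (hp : p.degree < d) :
    (∑ i : Fin d, C (p.coeff i) * X ^ (i : ℕ) : ℂ[X]) = p := by
  ext k
  by_cases hk : k < d
  · exact low_coeff d (fun i => p.coeff i) ⟨k, hk⟩
  · rw [Polynomial.degree_lt_iff_coeff_zero] at hp
    rw [hp k (by omega)]
    have := low_deg d (fun i => p.coeff i)
    rw [Polynomial.degree_lt_iff_coeff_zero] at this
    exact this k (by omega)

theorem mp_monic (d : ℕ) (c : Fin d → ℂ) : (mp d c).Monic := monic_X_pow_add (low_deg d c)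

theorem mp_natDegree (d : ℕ) (c : Fin d → ℂ) : (mp d c).natDegree = d :=
  natDegree_eq_of_degree_eq_some (by
    rw [mp, degree_add_eq_left_of_degree_lt] <;> rw [degree_X_pow]
    exact low_deg d c)

theorem mp_coeff (d : ℕ) (c : Fin d → ℂ) (i : Fin d) : (mp d c).coeff i = c i := by
  rw [mp, coeff_add, low_coeff, coeff_X_pow, if_neg (by have := i.2; omega), zero_add]

theorem mp_eq {d : ℕ} {p : ℂ[X]} (hp : p.Monic) (hd : p.natDegree = d) :
    mp d (fun i => p.coeff i) = p := by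
  rw [mp]
  conv_rhs => rw [hp.as_sum, hd]
  rw [Fin.sum_univ_eq_sum_range (fun i => C (p.coeff i) * X ^ i : ℕ → ℂ[X])]

theorem mp_coeff_expand (d : ℕ) (c : Fin d → ℂ) (k : ℕ) :
    (mp d c).coeff k = (if k = d then 1 else 0) + ∑ i : Fin d, if k = i then c i else 0 := by
  rw [mp, coeff_add, coeff_X_pow, finsetSum_coeff]
  congr 1
  refine Finset.sum_congr rfl fun i _ => ?_
  rw [coeff_C_mul_X_pow]

theorem mp_add_smul (d : ℕ) (c a : Fin d → ℂ) (t : ℂ) :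
    mp d (c + t • a) = mp d c + C t * ∑ i : Fin d, C (a i) * X ^ (i : ℕ) := by
  rw [mp, mp, Finset.mul_sum, add_assoc, ← Finset.sum_add_distrib]
  congr 1
  refine Finset.sum_congr rfl fun i _ => ?_
  simp only [Pi.add_apply, Pi.smul_apply, smul_eq_mul, map_add, map_mul]
  ring

/-! ### Hensel's lemma -/

/-- multiplication of monic polynomials in coordinates -/
noncomputable def mulM (m n : ℕ) (x : (Fin m → ℂ) × (Fin n → ℂ)) : Fin (m + n) → ℂ :=
  fun i => (mp m x.1 * mp n x.2).coeff i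

theorem mulM_contDiff (m n : ℕ) : ContDiff ℝ ⊤ (mulM m n) := by
  rw [contDiff_pi]
  intro i
  simp only [mulM, coeff_mul, mp_coeff_expand]
  refine ContDiff.sum fun x _ => ContDiff.mul ?_ ?_
  · refine contDiff_const.add (ContDiff.sum fun k _ => ?_)
    split_ifs
    · exact (contDiff_apply ℝ ℂ k).comp contDiff_fst
    · exact contDiff_const
  · refine contDiff_const.add (ContDiff.sum fun k _ => ?_)
    split_ifs
    · exact (contDiff_apply ℝ ℂ k).comp contDiff_snd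
    · exact contDiff_const

theorem mulM_line (m n : ℕ) (u a : Fin m → ℂ) (v b : Fin n → ℂ) (t : ℝ) :
    mulM m n ((u, v) + t • (a, b)) = mulM m n (u, v) +
      (t • (fun i : Fin (m + n) => ((∑ i : Fin m, C (a i) * X ^ (i : ℕ)) * mp n v +
        mp m u * (∑ i : Fin n, C (b i) * X ^ (i : ℕ)) : ℂ[X]).coeff i) +
      (t ^ 2) • (fun i : Fin (m + n) => ((∑ i : Fin m, C (a i) * X ^ (i : ℕ)) *
        (∑ i : Fin n, C (b i) * X ^ (i : ℕ)) : ℂ[X]).coeff i)) := by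
  funext i
  have h1 : ((u, v) + t • (a, b) : (Fin m → ℂ) × (Fin n → ℂ)) = (u + (t : ℂ) • a, v + (t : ℂ) • b) := by
    ext <;> simp
  rw [h1]
  simp only [mulM, mp_add_smul, Pi.add_apply, Pi.smul_apply, Complex.real_smul]
  have h2 : (mp m u + C (t : ℂ) * ∑ i : Fin m, C (a i) * X ^ (i : ℕ)) *
      (mp n v + C (t : ℂ) * ∑ i : Fin n, C (b i) * X ^ (i : ℕ)) =
      mp m u * mp n v + (C (t : ℂ) * ((∑ i : Fin m, C (a i) * X ^ (i : ℕ)) * mp n v +
        mp m u * (∑ i : Fin n, C (b i) * X ^ (i : ℕ))) +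
      C ((t : ℂ) ^ 2) * ((∑ i : Fin m, C (a i) * X ^ (i : ℕ)) *
        (∑ i : Fin n, C (b i) * X ^ (i : ℕ)))) := by
    rw [C_pow]
    ring
  rw [h2, coeff_add, coeff_add, coeff_C_mul, coeff_C_mul]
  push_cast
  ring

theorem mulM_inj {m n : ℕ} {u : Fin m → ℂ} {v : Fin n → ℂ} (hco : IsCoprime (mp m u) (mp n v))
    {a : Fin m → ℂ} {b : Fin n → ℂ}
    (h : ∀ i : Fin (m + n), ((∑ i : Fin m, C (a i) * X ^ (i : ℕ)) * mp n v +
        mp m u * (∑ i : Fin n, C (b i) * X ^ (i : ℕ)) : ℂ[X]).coeff i = 0) : a = 0 ∧ b = 0 := by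
  set A : ℂ[X] := ∑ i : Fin m, C (a i) * X ^ (i : ℕ) with hA
  set B : ℂ[X] := ∑ i : Fin n, C (b i) * X ^ (i : ℕ) with hB
  have hAd : A.degree < m := low_deg m a
  have hBd : B.degree < n := low_deg n b
  have hmd : (mp m u).degree = m := by
    rw [degree_eq_natDegree (mp_monic m u).ne_zero, mp_natDegree]
  have hnd : (mp n v).degree = n := by
    rw [degree_eq_natDegree (mp_monic n v).ne_zero, mp_natDegree]
  have h1 : A * mp n v + mp m u * B = 0 := by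
    have hd : (A * mp n v + mp m u * B).degree < ((m + n : ℕ) : WithBot ℕ) := by
      refine (degree_add_le _ _).trans_lt (max_lt ?_ ?_)
      · rw [degree_mul, hnd, Nat.cast_add]
        exact WithBot.add_lt_add_right (WithBot.natCast_ne_bot n) hAd
      · rw [degree_mul, hmd, Nat.cast_add]
        exact WithBot.add_lt_add_left (WithBot.natCast_ne_bot m) hBd
    rw [← low_eq hd]
    refine Finset.sum_eq_zero fun i _ => ?_
    rw [h i]
    simp
  have h2 : mp m u ∣ A * mp n v := by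
    refine ⟨-B, ?_⟩
    linear_combination h1
  have h3 : mp m u ∣ A := hco.dvd_of_dvd_mul_right h2
  have hA0 : A = 0 := by
    by_contra hne
    have := degree_le_of_dvd h3 hne
    rw [hmd] at this
    exact absurd hAd (not_lt.2 this)
  have hB0 : B = 0 := by
    rw [hA0, zero_mul, zero_add] at h1
    exact (mul_eq_zero.1 h1).resolve_left (mp_monic m u).ne_zero
  constructor
  · funext i
    rw [← low_coeff m a i, ← hA, hA0]
    simp
  · funext i
    rw [← low_coeff n b i, ← hB, hB0]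
    simp

/-- analytic Hensel lemma -/
theorem hensel {m n : ℕ} {c : Fin (m + n) → ℝ → ℂ} (hc : ∀ i, AnalyticAt ℝ (c i) s₀)
    {u₀ : Fin m → ℂ} {v₀ : Fin n → ℂ} (hco : IsCoprime (mp m u₀) (mp n v₀))
    (h0 : mp (m + n) (fun i => c i s₀) = mp m u₀ * mp n v₀) :
    ∃ (u : Fin m → ℝ → ℂ) (v : Fin n → ℝ → ℂ), (∀ i, AnalyticAt ℝ (u i) s₀) ∧
      (∀ i, AnalyticAt ℝ (v i) s₀) ∧
      ∀ᶠ s in 𝓝 s₀, mp (m + n) (fun i => c i s) = mp m (fun i => u i s) * mp n (fun i => v i s) := by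
  let E := (Fin m → ℂ) × (Fin n → ℂ)
  let F := Fin (m + n) → ℂ
  have hcd : ContDiffAt ℝ ⊤ (mulM m n) (u₀, v₀) := (mulM_contDiff m n).contDiffAt
  have hdiff : DifferentiableAt ℝ (mulM m n) (u₀, v₀) := hcd.differentiableAt (by simp)
  let L : E →L[ℝ] F := fderiv ℝ (mulM m n) (u₀, v₀)
  have hL : ∀ (a : Fin m → ℂ) (b : Fin n → ℂ), L (a, b) =
      fun i : Fin (m + n) => ((∑ i : Fin m, C (a i) * X ^ (i : ℕ)) * mp n v₀ +
        mp m u₀ * (∑ i : Fin n, C (b i) * X ^ (i : ℕ)) : ℂ[X]).coeff i := by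
    intro a b
    have h1 : HasDerivAt (fun t : ℝ => mulM m n ((u₀, v₀) + t • (a, b))) (L (a, b)) 0 := by
      have h2 : HasDerivAt (fun t : ℝ => ((u₀, v₀) + t • (a, b) : E)) (a, b) 0 := by
        have := ((hasDerivAt_id (0 : ℝ)).smul_const ((a, b) : E)).const_add ((u₀, v₀) : E)
        simpa using this
      have h3 : HasFDerivAt (mulM m n) L (((u₀, v₀) : E) + (0 : ℝ) • (a, b)) := by
        rw [zero_smul, add_zero]
        exact hdiff.hasFDerivAt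
      exact h3.comp_hasDerivAt (0 : ℝ) h2
    have h2 : HasDerivAt (fun t : ℝ => mulM m n ((u₀, v₀) + t • (a, b)))
        (fun i : Fin (m + n) => ((∑ i : Fin m, C (a i) * X ^ (i : ℕ)) * mp n v₀ +
        mp m u₀ * (∑ i : Fin n, C (b i) * X ^ (i : ℕ)) : ℂ[X]).coeff i) 0 := by
      simp only [mulM_line]
      have h3 := (((hasDerivAt_id (0 : ℝ)).smul_const (fun i : Fin (m + n) =>
        ((∑ i : Fin m, C (a i) * X ^ (i : ℕ)) * mp n v₀ +
        mp m u₀ * (∑ i : Fin n, C (b i) * X ^ (i : ℕ)) : ℂ[X]).coeff i)).add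
        (((hasDerivAt_pow 2 (0 : ℝ))).smul_const (fun i : Fin (m + n) =>
        ((∑ i : Fin m, C (a i) * X ^ (i : ℕ)) *
        (∑ i : Fin n, C (b i) * X ^ (i : ℕ)) : ℂ[X]).coeff i))).const_add (mulM m n (u₀, v₀))
      refine h3.congr_deriv ?_
      simp
    exact h1.unique h2
  have hinj : Function.Injective L := by
    rw [injective_iff_map_eq_zero]
    rintro ⟨a, b⟩ hab
    rw [hL] at hab
    obtain ⟨h1, h2⟩ := mulM_inj hco fun i => congrFun hab i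
    rw [h1, h2]
    rfl
  have hfr : Module.finrank ℝ E = Module.finrank ℝ F := by
    rw [Module.finrank_prod, Module.finrank_pi_fintype, Module.finrank_pi_fintype,
      Module.finrank_pi_fintype]
    simp only [Finset.sum_const, Finset.card_univ, Fintype.card_fin, smul_eq_mul]
    ring
  let L₁ : E ≃ₗ[ℝ] F := LinearEquiv.ofInjectiveOfFinrankEq (L : E →ₗ[ℝ] F) hinj hfr
  let L₂ : E ≃L[ℝ] F := L₁.toContinuousLinearEquiv
  have hL₂ : (L₂ : E →L[ℝ] F) = L := by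
    apply ContinuousLinearMap.ext
    intro x
    rfl
  have hfd : HasFDerivAt (mulM m n) (L₂ : E →L[ℝ] F) (u₀, v₀) := by
    rw [hL₂]
    exact hdiff.hasFDerivAt
  have hne : (⊤ : WithTop ℕ∞) ≠ 0 := by simp
  let ψ := hcd.localInverse hfd hne
  have hψ : ContDiffAt ℝ ⊤ ψ (mulM m n (u₀, v₀)) := hcd.to_localInverse hfd hne
  have hψa : AnalyticAt ℝ ψ (mulM m n (u₀, v₀)) := hψ.analyticAt
  let cc : ℝ → F := fun s i => c i s
  have hcc : AnalyticAt ℝ cc s₀ := by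
    rw [analyticAt_pi_iff]
    exact hc
  have hcc0 : cc s₀ = mulM m n (u₀, v₀) := by
    funext i
    simp only [cc, mulM]
    rw [← h0, mp_coeff]
  have hright : ∀ᶠ y in 𝓝 (mulM m n (u₀, v₀)), mulM m n (ψ y) = y :=
    (hcd.hasStrictFDerivAt' hfd hne).eventually_right_inverse
  have hx : AnalyticAt ℝ (fun s => ψ (cc s)) s₀ := by
    rw [← hcc0] at hψa
    exact hψa.comp hcc
  refine ⟨fun i s => (ψ (cc s)).1 i, fun i s => (ψ (cc s)).2 i, ?_, ?_, ?_⟩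
  · intro i
    have h1 : AnalyticAt ℝ (fun s => (ψ (cc s)).1) s₀ := by
      exact (ContinuousLinearMap.analyticAt (ContinuousLinearMap.fst ℝ (Fin m → ℂ) (Fin n → ℂ)) _).comp hx
    rw [analyticAt_pi_iff] at h1
    exact h1 i
  · intro i
    have h1 : AnalyticAt ℝ (fun s => (ψ (cc s)).2) s₀ := by
      exact (ContinuousLinearMap.analyticAt (ContinuousLinearMap.snd ℝ (Fin m → ℂ) (Fin n → ℂ)) _).comp hx
    rw [analyticAt_pi_iff] at h1
    exact h1 i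
  · have h1 : Tendsto cc (𝓝 s₀) (𝓝 (mulM m n (u₀, v₀))) := by
      rw [← hcc0]
      exact hcc.continuousAt
    filter_upwards [h1.eventually hright] with s hs
    have h2 : ∀ i : Fin (m + n), (mp m (ψ (cc s)).1 * mp n (ψ (cc s)).2).coeff i = c i s :=
      fun i => congrFun hs i
    have h3 : (mp m (ψ (cc s)).1 * mp n (ψ (cc s)).2).Monic := (mp_monic _ _).mul (mp_monic _ _)
    have h4 : (mp m (ψ (cc s)).1 * mp n (ψ (cc s)).2).natDegree = m + n := by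
      rw [(mp_monic _ _).natDegree_mul (mp_monic _ _), mp_natDegree, mp_natDegree]
    have h5 := mp_eq h3 h4
    rw [← h5]
    congr 1
    funext i
    exact (h2 i).symm

end Vale.Agent.P256.H283
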