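import Vale.Agent.P256.H283.Ord
import Mathlib.Algebra.Polynomial.Taylor
import Mathlib.RingTheory.PrincipalIdealDomain
import Mathlib.Analysis.Complex.Polynomial.Basic

/-!
# P256, n = 4 (helper283): Rellich's theorem for polynomials (no Puiseux series)
-/

set_option linter.all false

open Filter Topology Polynomial
open scoped ComplexConjugate

namespace Vale.Agent.P256.H283

variable {s₀ : ℝ} {f g : ℝ → ℂ}

/-- the ring of the functions analytic at `s₀` -/
def anS (s₀ : ℝ) : Subring (ℝ → ℂ) where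
  carrier := {f | AnalyticAt ℝ f s₀}
  mul_mem' hf hg := AnalyticAt.mul hf hg
  one_mem' := analyticAt_const
  add_mem' hf hg := AnalyticAt.add hf hg
  zero_mem' := analyticAt_const
  neg_mem' hf := AnalyticAt.neg hf

/-- the ring of the functions analytic and algebraic at `s₀` -/
def naS (s₀ : ℝ) : Subring (ℝ → ℂ) where
  carrier := {f | NA s₀ f}
  mul_mem' hf hg := NA.mul hf hg
  one_mem' := NA.const 1
  add_mem' hf hg := NA.add hf hg
  zero_mem' := NA.const 0
  neg_mem' hf := NA.neg hf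

theorem mem_anS : f ∈ anS s₀ ↔ AnalyticAt ℝ f s₀ := Iff.rfl

theorem mem_naS : f ∈ naS s₀ ↔ NA s₀ f := Iff.rfl

/-- polynomial families with coefficients in the ring `S` of functions -/
def PP (S : Subring (ℝ → ℂ)) (F : ℝ → ℂ[X]) : Prop := ∀ k, (fun s => (F s).coeff k) ∈ S

section PP

variable {S : Subring (ℝ → ℂ)} {F G : ℝ → ℂ[X]}

theorem sum_mem_fun {ι : Type*} {t : Finset ι} {h : ι → ℝ → ℂ} (hh : ∀ i ∈ t, h i ∈ S) :
    (fun s => ∑ i ∈ t, h i s) ∈ S := by
  have h1 : (fun s => ∑ i ∈ t, h i s) = ∑ i ∈ t, h i := by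
    funext s
    rw [Finset.sum_apply]
  rw [h1]
  exact Subring.sum_mem S hh

theorem PP.add (hF : PP S F) (hG : PP S G) : PP S fun s => F s + G s := by
  intro k
  simp only [coeff_add]
  exact S.add_mem (hF k) (hG k)

theorem PP.mul (hF : PP S F) (hG : PP S G) : PP S fun s => F s * G s := by
  intro k
  simp only [coeff_mul]
  exact sum_mem_fun fun x _ => S.mul_mem (hF x.1) (hG x.2)

theorem PP.neg (hF : PP S F) : PP S fun s => -F s := by
  intro k
  simp only [coeff_neg]
  exact S.neg_mem (hF k)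

theorem PP.sub (hF : PP S F) (hG : PP S G) : PP S fun s => F s - G s := by
  intro k
  simp only [coeff_sub]
  exact S.sub_mem (hF k) (hG k)

theorem PP.C (hf : f ∈ S) : PP S fun s => Polynomial.C (f s) := by
  intro k
  simp only [coeff_C]
  by_cases hk : k = 0
  · simp only [hk, if_true]
    exact hf
  · simp only [hk, if_false]
    exact S.zero_mem

/-- constant functions belong to `S` -/
def Cst (S : Subring (ℝ → ℂ)) : Prop := ∀ c : ℂ, (fun _ => c) ∈ S

theorem cst_an : Cst (anS s₀) := fun _ => analyticAt_const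

theorem cst_na : Cst (naS s₀) := fun c => NA.const c

theorem PP.const (hS : Cst S) (p : ℂ[X]) : PP S fun _ => p := fun k => hS _

theorem PP.sum {ι : Type*} {t : Finset ι} {F : ι → ℝ → ℂ[X]} (h : ∀ i ∈ t, PP S (F i)) :
    PP S fun s => ∑ i ∈ t, F i s := by
  intro k
  simp only [finsetSum_coeff]
  exact sum_mem_fun fun i hi => h i hi k

theorem PP.prod (hS : Cst S) {ι : Type*} {t : Finset ι} {F : ι → ℝ → ℂ[X]}
    (h : ∀ i ∈ t, PP S (F i)) : PP S fun s => ∏ i ∈ t, F i s := by
  classical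
  induction t using Finset.induction_on with
  | empty =>
    simp only [Finset.prod_empty]
    exact PP.const hS 1
  | insert a t ha ih =>
    simp only [Finset.prod_insert ha]
    exact (h a (Finset.mem_insert_self _ _)).mul (ih fun i hi => h i (Finset.mem_insert_of_mem hi))

theorem PP.eval (hF : PP S F) (hf : f ∈ S) {d : ℕ} (hd : ∀ s, (F s).natDegree ≤ d) :
    (fun s => (F s).eval (f s)) ∈ S := by
  have h1 : ∀ s, (F s).eval (f s) = ∑ j ∈ Finset.range (d + 1), (F s).coeff j * f s ^ j := by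
    intro s
    exact eval_eq_sum_range' (Nat.lt_succ_of_le (hd s)) _
  simp only [h1]
  exact sum_mem_fun fun j _ => S.mul_mem (hF j) (S.pow_mem hf j)

theorem PP.taylor (hS : Cst S) (hF : PP S F) (hf : f ∈ S) {d : ℕ} (hd : ∀ s, (F s).natDegree ≤ d) :
    PP S fun s => Polynomial.taylor (f s) (F s) := by
  intro k
  simp only [taylor_coeff]
  refine PP.eval (d := d) (F := fun s => hasseDeriv k (F s)) ?_ hf ?_
  · intro j
    simp only [hasseDeriv_coeff]
    exact S.mul_mem (hS _) (hF _)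
  · intro s
    exact (natDegree_hasseDeriv_le _ _).trans ((Nat.sub_le _ _).trans (hd s))

end PP

/-- Hensel's lemma for polynomial families -/
theorem hensel' {F : ℝ → ℂ[X]} {d : ℕ} (hF : PP (anS s₀) F) (hm : ∀ s, (F s).Monic)
    (hd : ∀ s, (F s).natDegree = d) {p q : ℂ[X]} (hp : p.Monic) (hq : q.Monic)
    (hco : IsCoprime p q) (h0 : F s₀ = p * q) :
    ∃ G H : ℝ → ℂ[X], PP (anS s₀) G ∧ PP (anS s₀) H ∧ (∀ s, (G s).Monic) ∧ (∀ s, (H s).Monic) ∧
      (∀ s, (G s).natDegree = p.natDegree) ∧ (∀ s, (H s).natDegree = q.natDegree) ∧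
      ∀ᶠ s in 𝓝 s₀, F s = G s * H s := by
  have hdd : d = p.natDegree + q.natDegree := by
    rw [← hd s₀, h0, hp.natDegree_mul hq]
  subst hdd
  have hp' := mp_eq hp rfl
  have hq' := mp_eq hq rfl
  obtain ⟨u, v, hu, hv, h⟩ := hensel (m := p.natDegree) (n := q.natDegree) (s₀ := s₀)
    (c := fun i s => (F s).coeff i) (fun i => hF i)
    (u₀ := fun i => p.coeff i) (v₀ := fun i => q.coeff i) (by rw [hp', hq']; exact hco)
    (by rw [hp', hq', ← h0]; exact mp_eq (hm _) (hd _))
  have key : ∀ (m : ℕ) (w : Fin m → ℝ → ℂ), (∀ i, AnalyticAt ℝ (w i) s₀) →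
      PP (anS s₀) fun s => mp m (fun i => w i s) := by
    intro m w hw k
    simp only [mp_coeff_expand]
    refine (anS s₀).add_mem (cst_an _) (sum_mem_fun fun i _ => ?_)
    by_cases hk : k = i
    · simp only [hk, if_true]
      exact hw i
    · simp only [hk, if_false]
      exact (anS s₀).zero_mem
  refine ⟨fun s => mp _ (fun i => u i s), fun s => mp _ (fun i => v i s), key _ _ hu, key _ _ hv,
    fun s => mp_monic _ _, fun s => mp_monic _ _, fun s => mp_natDegree _ _,
    fun s => mp_natDegree _ _, ?_⟩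
  filter_upwards [h] with s hs
  rw [← hs]
  exact (mp_eq (hm s) (hd s)).symm

/-! ### the first two symmetric functions -/

theorem esymm_two (t : Multiset ℂ) : 2 * t.esymm 2 = t.sum ^ 2 - (t.map (· ^ 2)).sum := by
  induction t using Multiset.induction_on with
  | empty => simp [Multiset.esymm, Multiset.powersetCard_zero_right 1]
  | cons a t ih =>
    have h1 : (a ::ₘ t).esymm 2 = t.esymm 2 + a * t.sum := by
      have h2 : (Multiset.map (fun x => a * x) t).sum = a * t.sum := by
        have := Multiset.sum_map_mul_left (s := t) (a := a) (f := id)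
        simpa using this
      simp only [Multiset.esymm, Multiset.powersetCard_cons, Multiset.map_add, Multiset.sum_add,
        Multiset.map_map, Function.comp_def, Multiset.prod_cons, Multiset.powersetCard_one,
        Multiset.prod_singleton, h2]
    rw [h1, mul_add, ih, Multiset.sum_cons, Multiset.map_cons, Multiset.sum_cons]
    ring

theorem coeff_sum {F : ℂ[X]} (hm : F.Monic) {e : ℕ} (hd : F.natDegree = e + 2) :
    F.coeff (e + 1) = -F.roots.sum ∧
      2 * F.coeff e = F.roots.sum ^ 2 - (F.roots.map (· ^ 2)).sum := by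
  have hcard : Multiset.card F.roots = F.natDegree :=
    (splits_iff_card_roots).1 (IsAlgClosed.splits F)
  constructor
  · rw [coeff_eq_esymm_roots_of_card hcard (by omega), hm.leadingCoeff, hd]
    have h1 : e + 2 - (e + 1) = 1 := by omega
    rw [h1]
    simp [Multiset.esymm, Multiset.powersetCard_one]
  · rw [coeff_eq_esymm_roots_of_card hcard (by omega), hm.leadingCoeff, hd]
    have h1 : e + 2 - e = 2 := by omega
    rw [h1, ← esymm_two]
    ring

theorem root_bound {F : ℂ[X]} (hm : F.Monic) {e : ℕ} (hd : F.natDegree = e + 2)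
    (h1 : F.coeff (e + 1) = 0) (hr : ∀ z, F.eval z = 0 → z.im = 0) :
    (F.coeff e).im = 0 ∧ (F.coeff e).re ≤ 0 ∧ ∀ z ∈ F.roots, ‖z‖ ^ 2 ≤ -2 * (F.coeff e).re := by
  obtain ⟨h2, h3⟩ := coeff_sum hm hd
  have h4 : F.roots.sum = 0 := by
    rw [h1] at h2
    exact neg_eq_zero.1 h2.symm
  rw [h4] at h3
  have key : ∀ t : Multiset ℂ, (∀ z ∈ t, z.im = 0) → ((t.map (· ^ 2)).sum.im = 0 ∧
      (t.map (· ^ 2)).sum.re = (t.map fun z => ‖z‖ ^ 2).sum) := by
    intro t
    induction t using Multiset.induction_on with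
    | empty => simp
    | cons a t ih =>
      intro h
      obtain ⟨h5, h6⟩ := ih fun z hz => h z (Multiset.mem_cons_of_mem hz)
      have h7 := h a (Multiset.mem_cons_self _ _)
      simp only [Multiset.map_cons, Multiset.sum_cons, Complex.add_im, Complex.add_re, h5, h6]
      have h8 : ‖a‖ ^ 2 = a.re ^ 2 := by
        rw [← Complex.normSq_eq_norm_sq, Complex.normSq_apply, h7]
        ring
      constructor
      · simp [pow_two, h7]
      · rw [h8]
        simp [pow_two, h7]
  obtain ⟨h5, h6⟩ := key F.roots fun z hz => hr z (by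
    have := (mem_roots hm.ne_zero).1 hz
    exact this)
  have h7 : F.coeff e = -((F.roots.map (· ^ 2)).sum) / 2 := by
    linear_combination h3 / 2
  have h8 : (F.coeff e).re = -((F.roots.map fun z => ‖z‖ ^ 2).sum) / 2 := by
    rw [h7, ← h6]
    simp
  have h9 : ∀ t : Multiset ℂ, 0 ≤ (t.map fun z => ‖z‖ ^ 2).sum := by
    intro t
    apply Multiset.sum_nonneg
    intro x hx
    obtain ⟨z, _, rfl⟩ := Multiset.mem_map.1 hx
    positivity
  refine ⟨?_, ?_, ?_⟩
  · rw [h7]
    simp [h5]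
  · rw [h8]
    have := h9 F.roots
    linarith
  · intro z hz
    rw [h8]
    obtain ⟨t, ht⟩ := Multiset.exists_cons_of_mem hz
    rw [ht, Multiset.map_cons, Multiset.sum_cons]
    have := h9 t
    linarith

/-! ### Rellich's theorem for analytic families of real rooted polynomials -/

/-- rescaling -/
theorem scale_prod {d : ℕ} {G B : ℂ[X]} (hG : G.natDegree = d) (hB : B.natDegree = d) {t : ℂ}
    (ht : t ≠ 0) (h : ∀ k, k ≤ d → G.coeff k = t ^ (d - k) * B.coeff k) :
    (∀ z, B.eval z = 0 → G.eval (t * z) = 0) ∧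
    ∀ μ : Fin d → ℂ, B = ∏ i, (X - C (μ i)) → G = ∏ i, (X - C (t * μ i)) := by
  have h1 : G = C (t ^ d) * B.comp (C t⁻¹ * X) := by
    ext k
    rw [coeff_C_mul, comp_C_mul_X_coeff]
    by_cases hk : k ≤ d
    · rw [h k hk]
      have h2 : t ^ d = t ^ (d - k) * t ^ k := by rw [← pow_add, Nat.sub_add_cancel hk]
      rw [h2, inv_pow]
      field_simp
    · rw [coeff_eq_zero_of_natDegree_lt (by omega), coeff_eq_zero_of_natDegree_lt (p := B) (by omega)]
      ring
  constructor
  · intro z hz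
    rw [h1, eval_mul, eval_comp, eval_mul, eval_C, eval_C, eval_X, inv_mul_cancel_left₀ ht, hz,
      mul_zero]
  · intro μ hμ
    rw [h1, hμ, Polynomial.prod_comp]
    have h2 : ∀ i : Fin d, (X - C (μ i)).comp (C t⁻¹ * X) = C t⁻¹ * (X - C (t * μ i)) := by
      intro i
      rw [sub_comp, X_comp, C_comp, mul_sub, ← C_mul, inv_mul_cancel_left₀ ht]
    rw [Finset.prod_congr rfl fun i _ => h2 i, Finset.prod_mul_distrib, Finset.prod_const,
      Finset.card_univ, Fintype.card_fin, ← mul_assoc, ← C_pow, ← C_mul, ← mul_pow,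
      mul_inv_cancel₀ ht, one_pow, C_1, one_mul]

/-- the parity of the order of a nonnegative analytic function -/
theorem even_of_nonneg {g : ℝ → ℂ} (hg : ContinuousAt g s₀) (hg0 : g s₀ ≠ 0) {n : ℕ}
    (him : ∀ᶠ s in 𝓝[≠] s₀, (((s - s₀ : ℝ) : ℂ) ^ n * g s).im = 0)
    (hre : ∀ᶠ s in 𝓝[≠] s₀, (((s - s₀ : ℝ) : ℂ) ^ n * g s).re ≤ 0) : Even n := by
  by_contra hodd
  rw [Nat.not_even_iff_odd] at hodd
  have h1 : ∀ s, (((s - s₀ : ℝ) : ℂ) ^ n * g s).im = (s - s₀) ^ n * (g s).im := by
    intro s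
    rw [← Complex.ofReal_pow, Complex.im_ofReal_mul]
  have h2 : ∀ s, (((s - s₀ : ℝ) : ℂ) ^ n * g s).re = (s - s₀) ^ n * (g s).re := by
    intro s
    rw [← Complex.ofReal_pow, Complex.re_ofReal_mul]
  simp only [h1] at him
  simp only [h2] at hre
  have him0 : (g s₀).im = 0 := by
    have h3 : ∀ᶠ s in 𝓝[≠] s₀, (g s).im = 0 := by
      filter_upwards [him, ne_of_punct s₀] with s h4 h5
      exact (mul_eq_zero.1 h4).resolve_left (pow_ne_zero _ (sub_ne_zero.2 h5))
    have h4 : Tendsto (fun s => (g s).im) (𝓝[≠] s₀) (𝓝 (g s₀).im) :=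
      (Complex.continuous_im.continuousAt.comp hg).tendsto.mono_left nhdsWithin_le_nhds
    exact tendsto_nhds_unique (h4.congr' h3) tendsto_const_nhds
  have hgr : ContinuousAt (fun s => (g s).re) s₀ := Complex.continuous_re.continuousAt.comp hg
  have hle : (g s₀).re ≤ 0 := by
    have h3 : ∀ᶠ s in 𝓝[>] s₀, (g s).re ≤ 0 := by
      have h4 : ∀ᶠ s in 𝓝[>] s₀, (s - s₀) ^ n * (g s).re ≤ 0 :=
        hre.filter_mono (nhdsWithin_mono _ (by
          intro x hx
          exact ne_of_gt hx))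
      filter_upwards [h4, self_mem_nhdsWithin] with s h5 h6
      have h7 : 0 < (s - s₀) ^ n := pow_pos (sub_pos.2 h6) n
      by_contra h8
      push Not at h8
      have := mul_pos h7 h8
      linarith
    exact le_of_tendsto (hgr.tendsto.mono_left nhdsWithin_le_nhds) h3
  have hge : 0 ≤ (g s₀).re := by
    have h3 : ∀ᶠ s in 𝓝[<] s₀, 0 ≤ (g s).re := by
      have h4 : ∀ᶠ s in 𝓝[<] s₀, (s - s₀) ^ n * (g s).re ≤ 0 :=
        hre.filter_mono (nhdsWithin_mono _ (by
          intro x hx
          exact ne_of_lt hx))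
      filter_upwards [h4, self_mem_nhdsWithin] with s h5 h6
      have h7 : (s - s₀) ^ n < 0 := hodd.pow_neg (sub_neg.2 h6)
      by_contra h8
      push Not at h8
      have := mul_pos_of_neg_of_neg h7 h8
      linarith
    exact ge_of_tendsto (hgr.tendsto.mono_left nhdsWithin_le_nhds) h3
  apply hg0
  apply Complex.ext
  · simp only [Complex.zero_re]
    linarith
  · simpa using him0

/-- a monic polynomial with zero mean of the roots, which is not `X ^ d`, has a coprime
factorization -/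
theorem exists_coprime {B : ℂ[X]} (hm : B.Monic) {e : ℕ} (hd : B.natDegree = e + 2)
    (h1 : B.coeff (e + 1) = 0) (h2 : B.coeff e ≠ 0) :
    ∃ p q : ℂ[X], p.Monic ∧ q.Monic ∧ IsCoprime p q ∧ B = p * q ∧ p.natDegree ≠ 0 ∧
      q.natDegree ≠ 0 := by
  obtain ⟨r, hr⟩ := Complex.exists_root (f := B) (by
    rw [degree_eq_natDegree hm.ne_zero, hd]
    exact_mod_cast Nat.succ_pos _)
  obtain ⟨q, hq, hnd⟩ := exists_eq_pow_rootMultiplicity_mul_and_not_dvd B hm.ne_zero r
  set k := B.rootMultiplicity r with hk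
  have hk0 : k ≠ 0 := by
    rw [hk]
    exact (rootMultiplicity_pos hm.ne_zero).2 hr |>.ne'
  have hpm : ((X - C r) ^ k).Monic := (monic_X_sub_C r).pow k
  have hqm : q.Monic := by
    rw [hq] at hm
    exact hpm.of_mul_monic_left hm
  refine ⟨(X - C r) ^ k, q, hpm, hqm, ?_, hq, ?_, ?_⟩
  · exact IsCoprime.pow_left (((irreducible_X_sub_C r).coprime_iff_not_dvd).2 hnd)
  · rw [natDegree_pow, natDegree_X_sub_C, mul_one]
    exact hk0
  · intro h0
    have hq1 : q = 1 := hqm.natDegree_eq_zero.1 h0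
    have hB : B = (X - C r) ^ k := by
      conv_lhs => rw [hq, hq1, mul_one]
    have hkd : k = e + 2 := by
      rw [← hd]
      conv_rhs => rw [hB]
      rw [natDegree_pow, natDegree_X_sub_C, mul_one]
    obtain ⟨h3, h4⟩ := coeff_sum hm hd
    have hroots : B.roots = k • {r} := by
      conv_lhs => rw [hB]
      rw [roots_pow, roots_X_sub_C]
    rw [hroots] at h3 h4
    rw [h1, Multiset.sum_nsmul, Multiset.sum_singleton] at h3
    have h5 : r = 0 := by
      have h6 : (k : ℂ) * r = 0 := by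
        rw [nsmul_eq_mul] at h3
        exact (neg_eq_zero.1 h3.symm)
      exact (mul_eq_zero.1 h6).resolve_left (by exact_mod_cast hk0)
    rw [Multiset.map_nsmul, Multiset.sum_nsmul, Multiset.sum_nsmul, h5] at h4
    apply h2
    simpa using h4

/-- the centred case of Rellich's theorem, assuming the theorem for smaller degrees -/
theorem rell_centred {e : ℕ} (IH : ∀ d < e + 2, ∀ (F : ℝ → ℂ[X]), PP (anS s₀) F →
      (∀ s, (F s).Monic) → (∀ s, (F s).natDegree = d) →
      (∀ᶠ s in 𝓝[≠] s₀, ∀ z, (F s).eval z = 0 → z.im = 0) →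
      ∃ lam : Fin d → ℝ → ℂ, (∀ i, AnalyticAt ℝ (lam i) s₀) ∧
        ∀ᶠ s in 𝓝[≠] s₀, F s = ∏ i, (X - C (lam i s)))
    {G : ℝ → ℂ[X]} (hG : PP (anS s₀) G) (hm : ∀ s, (G s).Monic)
    (hd : ∀ s, (G s).natDegree = e + 2)
    (hr : ∀ᶠ s in 𝓝[≠] s₀, ∀ z, (G s).eval z = 0 → z.im = 0)
    (h1 : ∀ s, (G s).coeff (e + 1) = 0) :
    ∃ lam : Fin (e + 2) → ℝ → ℂ, (∀ i, AnalyticAt ℝ (lam i) s₀) ∧
        ∀ᶠ s in 𝓝[≠] s₀, G s = ∏ i, (X - C (lam i s)) := by
  have hE : AnalyticAt ℝ (fun s => (G s).coeff e) s₀ := hG e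
  by_cases hz : ∀ᶠ s in 𝓝 s₀, (G s).coeff e = 0
  · refine ⟨fun _ _ => 0, fun _ => analyticAt_const, ?_⟩
    filter_upwards [hz.filter_mono nhdsWithin_le_nhds, hr] with s h2 h3
    obtain ⟨_, _, h4⟩ := root_bound (hm s) (hd s) (h1 s) h3
    have h5 : ∀ z ∈ (G s).roots, z = 0 := by
      intro z hz
      have h6 := h4 z hz
      rw [h2] at h6
      simp only [Complex.zero_re, mul_zero] at h6
      have h7 : ‖z‖ = 0 := by
        have h8 : 0 ≤ ‖z‖ := norm_nonneg z
        nlinarith
      exact norm_eq_zero.1 h7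
    have h6 : (G s).roots = Multiset.replicate (e + 2) 0 := by
      rw [Multiset.eq_replicate]
      refine ⟨?_, h5⟩
      rw [← hd s]
      exact (splits_iff_card_roots).1 (IsAlgClosed.splits (G s))
    have h7 : G s = ((G s).roots.map fun a => X - C a).prod := by
      have := (IsAlgClosed.splits (G s)).eq_prod_roots_of_monic (hm s)
      exact this
    rw [h7, h6]
    simp only [Multiset.map_replicate, Multiset.prod_replicate, Finset.prod_const,
      Finset.card_univ, Fintype.card_fin]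
  obtain ⟨n, g, hg, hg0, hn⟩ := analytic_order hE hz
  have hbd : ∀ᶠ s in 𝓝[≠] s₀, ((G s).coeff e).im = 0 ∧ ((G s).coeff e).re ≤ 0 ∧
      ∀ z ∈ (G s).roots, ‖z‖ ^ 2 ≤ -2 * ((G s).coeff e).re := by
    filter_upwards [hr] with s hs
    exact root_bound (hm s) (hd s) (h1 s) hs
  have hn' := hn.filter_mono (nhdsWithin_le_nhds (s := {s₀}ᶜ))
  have heven : Even n := by
    apply even_of_nonneg hg.continuousAt hg0
    · filter_upwards [hbd, hn'] with s h2 h3
      rw [← h3]
      exact h2.1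
    · filter_upwards [hbd, hn'] with s h2 h3
      rw [← h3]
      exact h2.2.1
  obtain ⟨m, hm2⟩ := heven
  -- the bound of the roots
  set K : ℝ := 2 * (‖g s₀‖ + 1) + 1 with hK
  have hK0 : 1 ≤ K := by
    have := norm_nonneg (g s₀)
    linarith
  have hgb : ∀ᶠ s in 𝓝[≠] s₀, ‖g s‖ ≤ ‖g s₀‖ + 1 :=
    (hg.continuousAt.norm.eventually_le_const (by linarith : ‖g s₀‖ < ‖g s₀‖ + 1)).filter_mono
      nhdsWithin_le_nhds
  have hroots : ∀ᶠ s in 𝓝[≠] s₀, ∀ z ∈ (G s).roots, ‖z‖ ≤ K * |s - s₀| ^ m := by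
    filter_upwards [hbd, hn', hgb] with s h2 h3 h4 z hz
    have h5 := h2.2.2 z hz
    have h6 : -2 * ((G s).coeff e).re ≤ 2 * ‖(G s).coeff e‖ := by
      have := Complex.abs_re_le_norm ((G s).coeff e)
      have h7 := neg_abs_le ((G s).coeff e).re
      linarith
    have h7 : ‖(G s).coeff e‖ = |s - s₀| ^ m * |s - s₀| ^ m * ‖g s‖ := by
      rw [h3, norm_mul, norm_cpow, hm2, pow_add]
    have h8 : 0 ≤ |s - s₀| ^ m := by positivity
    have h9 : ‖z‖ ^ 2 ≤ (K * |s - s₀| ^ m) ^ 2 := by
      calc ‖z‖ ^ 2 ≤ 2 * (|s - s₀| ^ m * |s - s₀| ^ m * ‖g s‖) := by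
            rw [← h7]
            exact h5.trans h6
        _ ≤ 2 * (|s - s₀| ^ m * |s - s₀| ^ m * (‖g s₀‖ + 1)) := by gcongr
        _ = (K - 1) * (|s - s₀| ^ m) ^ 2 := by rw [hK]; ring
        _ ≤ K ^ 2 * (|s - s₀| ^ m) ^ 2 := by
            apply mul_le_mul_of_nonneg_right _ (by positivity)
            nlinarith
        _ = (K * |s - s₀| ^ m) ^ 2 := by ring
    exact (sq_le_sq₀ (norm_nonneg z) (by positivity)).1 h9
  -- division of the coefficients
  have hdiv : ∀ k : Fin (e + 2), ∃ b : ℝ → ℂ, AnalyticAt ℝ b s₀ ∧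
      ∀ᶠ s in 𝓝 s₀, (G s).coeff k = ((s - s₀ : ℝ) : ℂ) ^ (m * (e + 2 - k)) * b s := by
    intro k
    refine ord_div (hG k) (m * (e + 2 - k)) (K ^ (e + 2 - (k : ℕ)) * (e + 2).choose k) ?_
    filter_upwards [hroots] with s h2
    have h3 := coeff_le_of_roots_le (f := RingHom.id ℂ) (p := G s) (B := K * |s - s₀| ^ m) k (hm s)
      (IsAlgClosed.splits _) (by
        intro z hz
        rw [Polynomial.map_id] at hz
        exact h2 z hz)
    rw [Polynomial.map_id, hd s] at h3
    refine h3.trans (le_of_eq ?_)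
    rw [mul_pow, ← pow_mul]
    ring
  choose b hb hb2 using hdiv
  set B : ℝ → ℂ[X] := fun s => mp (e + 2) (fun i => b i s) with hB
  have hBm : ∀ s, (B s).Monic := fun s => mp_monic _ _
  have hBd : ∀ s, (B s).natDegree = e + 2 := fun s => mp_natDegree _ _
  have hBp : PP (anS s₀) B := by
    intro k
    simp only [hB, mp_coeff_expand]
    refine (anS s₀).add_mem (cst_an _) (sum_mem_fun fun i _ => ?_)
    by_cases hk : k = i
    · simp only [hk, if_true]
      exact hb i
    · simp only [hk, if_false]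
      exact (anS s₀).zero_mem
  have hrel : ∀ᶠ s in 𝓝 s₀, ∀ k, k ≤ e + 2 →
      (G s).coeff k = (((s - s₀ : ℝ) : ℂ) ^ m) ^ (e + 2 - k) * (B s).coeff k := by
    have h2 : ∀ᶠ s in 𝓝 s₀, ∀ k : Fin (e + 2),
        (G s).coeff k = ((s - s₀ : ℝ) : ℂ) ^ (m * (e + 2 - k)) * b k s :=
      eventually_all.2 hb2
    filter_upwards [h2] with s hs k hk
    rcases hk.lt_or_eq with hk | hk
    · rw [hs ⟨k, hk⟩, ← pow_mul]
      congr 1
      exact (mp_coeff (e + 2) (fun i => b i s) ⟨k, hk⟩).symm
    · subst hk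
      have h3 : (G s).coeff (e + 2) = 1 := by
        rw [← hd s]
        exact hm s
      have h4 : (B s).coeff (e + 2) = 1 := by
        have := hBm s
        rw [Monic, leadingCoeff, hBd s] at this
        exact this
      rw [h3, h4, Nat.sub_self, pow_zero, mul_one]
  have hrel' := hrel.filter_mono (nhdsWithin_le_nhds (s := {s₀}ᶜ))
  -- the values at the base point
  have hB1 : (B s₀).coeff (e + 1) = 0 := by
    have h2 : ∀ᶠ s in 𝓝[≠] s₀, (B s).coeff (e + 1) = 0 := by
      filter_upwards [hrel', pw_ne s₀ m] with s h3 h4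
      have h5 := h3 (e + 1) (by omega)
      rw [h1 s] at h5
      exact (mul_eq_zero.1 h5.symm).resolve_left (pow_ne_zero _ h4)
    have h3 : ∀ᶠ s in 𝓝 s₀, (B s).coeff (e + 1) = 0 :=
      eq_of_punct (f := fun s => (B s).coeff (e + 1)) (g := fun _ => 0)
        (hBp (e + 1)).continuousAt continuousAt_const h2
    exact h3.self_of_nhds
  have hB2 : (B s₀).coeff e ≠ 0 := by
    have h2 : ∀ᶠ s in 𝓝[≠] s₀, (B s).coeff e = g s := by
      filter_upwards [hrel', pw_ne s₀ m, hn'] with s h3 h4 h5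
      have h6 := h3 e (by omega)
      have h7 : e + 2 - e = 2 := by omega
      rw [h5, h7, hm2, pow_add, ← pow_two] at h6
      exact (mul_left_cancel₀ (pow_ne_zero 2 h4) h6).symm
    have h3 : ∀ᶠ s in 𝓝 s₀, (B s).coeff e = g s :=
      eq_of_punct (f := fun s => (B s).coeff e) (g := g)
        (hBp e).continuousAt hg.continuousAt h2
    rw [h3.self_of_nhds]
    exact hg0
  obtain ⟨p, q, hp, hq, hco, hpq, hp0, hq0⟩ := exists_coprime (hBm s₀) (hBd s₀) hB1 hB2
  obtain ⟨P, Q, hP, hQ, hPm, hQm, hPd, hQd, hPQ⟩ := hensel' hBp hBm hBd hp hq hco hpq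
  have hdeg : p.natDegree + q.natDegree = e + 2 := by
    rw [← hp.natDegree_mul hq, ← hpq, hBd]
  have hPQ' := hPQ.filter_mono (nhdsWithin_le_nhds (s := {s₀}ᶜ))
  have hBr : ∀ᶠ s in 𝓝[≠] s₀, ∀ z, (B s).eval z = 0 → z.im = 0 := by
    filter_upwards [hr, hrel', pw_ne s₀ m, ne_of_punct s₀] with s h2 h3 h4 h5 z hz
    have h6 := (scale_prod (hd s) (hBd s) h4 h3).1 z hz
    have h7 := h2 _ h6
    have h8 : ((s - s₀ : ℝ) : ℂ) ^ m = (((s - s₀) ^ m : ℝ) : ℂ) := by push_cast; rfl
    rw [h8, Complex.im_ofReal_mul] at h7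
    exact (mul_eq_zero.1 h7).resolve_left (pow_ne_zero _ (sub_ne_zero.2 h5))
  obtain ⟨μ, hμ, hμ2⟩ := IH p.natDegree (by omega) P hP hPm hPd (by
    filter_upwards [hBr, hPQ'] with s h2 h3 z hz
    refine h2 z ?_
    rw [h3, eval_mul, hz, zero_mul])
  obtain ⟨ν, hν, hν2⟩ := IH q.natDegree (by omega) Q hQ hQm hQd (by
    filter_upwards [hBr, hPQ'] with s h2 h3 z hz
    refine h2 z ?_
    rw [h3, eval_mul, hz, mul_zero])
  let w : Fin (p.natDegree + q.natDegree) → ℝ → ℂ := Fin.append μ ν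
  have hw : ∀ i, AnalyticAt ℝ (w i) s₀ := by
    intro i
    refine Fin.addCases (fun i => ?_) (fun i => ?_) i
    · simp only [w, Fin.append_left]
      exact hμ i
    · simp only [w, Fin.append_right]
      exact hν i
  have hw2 : ∀ᶠ s in 𝓝[≠] s₀, B s = ∏ i, (X - C (w i s)) := by
    filter_upwards [hPQ', hμ2, hν2] with s h2 h3 h4
    rw [h2, h3, h4, Fin.prod_univ_add]
    simp only [w, Fin.append_left, Fin.append_right]
  refine ⟨fun i s => ((s - s₀ : ℝ) : ℂ) ^ m * w (Fin.cast hdeg.symm i) s,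
    fun i => (pw_an s₀ m).mul (hw _), ?_⟩
  filter_upwards [hw2, hrel', pw_ne s₀ m] with s h2 h3 h4
  refine (scale_prod (hd s) (hBd s) h4 h3).2 (fun i => w (Fin.cast hdeg.symm i) s) ?_
  rw [h2]
  exact (Equiv.prod_comp (finCongr hdeg.symm) (fun i => X - C (w i s))).symm

/-- Rellich's theorem, analytic version, normalised families -/
theorem rell_an (s₀ : ℝ) (d : ℕ) : ∀ (F : ℝ → ℂ[X]), PP (anS s₀) F →
      (∀ s, (F s).Monic) → (∀ s, (F s).natDegree = d) →
      (∀ᶠ s in 𝓝[≠] s₀, ∀ z, (F s).eval z = 0 → z.im = 0) →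
      ∃ lam : Fin d → ℝ → ℂ, (∀ i, AnalyticAt ℝ (lam i) s₀) ∧
        ∀ᶠ s in 𝓝[≠] s₀, F s = ∏ i, (X - C (lam i s)) := by
  induction d using Nat.strong_induction_on with
  | _ d IH =>
  intro F hF hm hd hr
  rcases d with _ | _ | e
  · refine ⟨fun i => i.elim0, fun i => i.elim0, Eventually.of_forall fun s => ?_⟩
    simp only [Finset.univ_eq_empty, Finset.prod_empty]
    exact (hm s).natDegree_eq_zero.1 (hd s)
  · refine ⟨fun _ s => -(F s).coeff 0, fun _ => (anS s₀).neg_mem (hF 0),
      Eventually.of_forall fun s => ?_⟩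
    rw [Fin.prod_univ_one, C_neg, sub_neg_eq_add]
    have h2 := (hm s).as_sum
    rw [hd s] at h2
    simpa using h2
  · -- centre
    set r : ℝ → ℂ := fun s => -(F s).coeff (e + 1) / ((e + 2 : ℕ) : ℂ) with hrdef
    have hne : ((e + 2 : ℕ) : ℂ) ≠ 0 := by exact_mod_cast Nat.succ_ne_zero (e + 1)
    have hran : r ∈ anS s₀ := by
      have h2 : r = fun s => -(F s).coeff (e + 1) * (((e + 2 : ℕ) : ℂ))⁻¹ := by
        funext s
        exact div_eq_mul_inv _ _
      rw [h2]
      exact (anS s₀).mul_mem ((anS s₀).neg_mem (hF _)) (cst_an _)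
    set G : ℝ → ℂ[X] := fun s => taylor (r s) (F s) with hG
    have hGp : PP (anS s₀) G := hF.taylor cst_an hran (d := e + 2) fun s => (hd s).le
    have hGm : ∀ s, (G s).Monic := by
      intro s
      rw [Monic, hG]
      simp only
      rw [leadingCoeff_taylor]
      exact hm s
    have hGd : ∀ s, (G s).natDegree = e + 2 := by
      intro s
      rw [hG]
      simp only
      rw [natDegree_taylor]
      exact hd s
    have hG1 : ∀ s, (G s).coeff (e + 1) = 0 := by
      intro s
      simp only [hG]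
      rw [taylor_coeff]
      have h2 : (hasseDeriv (e + 1) (F s)).natDegree < 2 := by
        have := natDegree_hasseDeriv_le (F s) (e + 1)
        rw [hd s] at this
        omega
      rw [eval_eq_sum_range' h2, Finset.sum_range_succ, Finset.sum_range_one]
      simp only [hasseDeriv_coeff]
      have h3 : (F s).coeff (1 + (e + 1)) = 1 := by
        have := hm s
        rw [Monic, leadingCoeff, hd s] at this
        rw [← this]
        congr 1
        omega
      have h4 : (1 + (e + 1)).choose (e + 1) = e + 2 := by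
        rw [show 1 + (e + 1) = (e + 1) + 1 by omega, Nat.choose_succ_self_right]
      rw [h3, h4, zero_add, Nat.choose_self]
      simp only [hrdef, pow_zero, pow_one, mul_one, Nat.cast_one, one_mul]
      field_simp
      ring
    have hrr : ∀ᶠ s in 𝓝[≠] s₀, (r s).im = 0 := by
      filter_upwards [hr] with s hs
      have h2 := (coeff_sum (hm s) (hd s)).1
      have h3 : ∀ t : Multiset ℂ, (∀ z ∈ t, z.im = 0) → t.sum.im = 0 := by
        intro t
        induction t using Multiset.induction_on with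
        | empty => simp
        | cons a t ih =>
          intro h
          rw [Multiset.sum_cons, Complex.add_im, h a (Multiset.mem_cons_self _ _),
            ih fun z hz => h z (Multiset.mem_cons_of_mem hz), add_zero]
      have h4 := h3 (F s).roots fun z hz => hs z ((mem_roots (hm s).ne_zero).1 hz)
      simp only [hrdef, h2]
      rw [neg_neg, ← Complex.ofReal_natCast, Complex.div_ofReal_im, h4, zero_div]
    have hGr : ∀ᶠ s in 𝓝[≠] s₀, ∀ z, (G s).eval z = 0 → z.im = 0 := by
      filter_upwards [hr, hrr] with s h2 h3 z hz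
      simp only [hG] at hz
      rw [taylor_eval] at hz
      have h4 := h2 _ hz
      rw [Complex.add_im, h3, add_zero] at h4
      exact h4
    obtain ⟨μ, hμ, hμ2⟩ := rell_centred IH hGp hGm hGd hGr hG1
    refine ⟨fun i s => μ i s + r s, fun i => (hμ i).add hran, ?_⟩
    filter_upwards [hμ2] with s hs
    have h2 : F s = taylor (-r s) (G s) := by
      simp only [hG]
      rw [taylor_taylor, neg_add_cancel, taylor_zero]
    rw [h2, hs]
    change (taylorAlgHom (-r s)) (∏ i, (X - C (μ i s))) = _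
    rw [map_prod]
    refine Finset.prod_congr rfl fun i _ => ?_
    rw [map_sub]
    change taylor (-r s) X - taylor (-r s) (C (μ i s)) = _
    rw [taylor_X, taylor_C, C_add, C_neg]
    ring

theorem PP.an {F : ℝ → ℂ[X]} (hF : PP (naS s₀) F) : PP (anS s₀) F := fun k => (hF k).an

/-- polynomial families which agree off the point agree near the point -/
theorem poly_eq_of_punct {F G : ℝ → ℂ[X]} (hF : PP (anS s₀) F) (hG : PP (anS s₀) G)
    (h : ∀ᶠ s in 𝓝[≠] s₀, F s = G s) : ∀ᶠ s in 𝓝 s₀, F s = G s := by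
  have h0 : F s₀ = G s₀ := by
    ext k
    have h1 : ∀ᶠ s in 𝓝[≠] s₀, (F s).coeff k = (G s).coeff k := by
      filter_upwards [h] with s hs
      rw [hs]
    exact (eq_of_punct (f := fun s => (F s).coeff k) (g := fun s => (G s).coeff k)
      (hF k).continuousAt (hG k).continuousAt h1).self_of_nhds
  have h3 := eventually_nhdsWithin_iff.1 h
  filter_upwards [h3] with s hs
  by_cases hss : s = s₀
  · rw [hss, h0]
  · exact hs hss

/-- **(Ra)** Rellich's theorem for polynomials with analytic algebraic coefficients -/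
theorem rellich_poly {F : ℝ → ℂ[X]} {d : ℕ} (hF : PP (naS s₀) F)
    (hm : ∀ᶠ s in 𝓝[≠] s₀, (F s).Monic) (hd : ∀ᶠ s in 𝓝[≠] s₀, (F s).natDegree = d)
    (hr : ∀ᶠ s in 𝓝[≠] s₀, ∀ z, (F s).eval z = 0 → z.im = 0) :
    ∃ lam : Fin d → ℝ → ℂ, (∀ i, NA s₀ (lam i)) ∧ (∀ i, ∀ᶠ s in 𝓝 s₀, (lam i s).im = 0) ∧
      ∀ᶠ s in 𝓝 s₀, F s = ∏ i, (X - C (lam i s)) := by
  set G : ℝ → ℂ[X] := fun s => mp d (fun i => (F s).coeff i) with hG
  have hGF : ∀ᶠ s in 𝓝[≠] s₀, F s = G s := by
    filter_upwards [hm, hd] with s h1 h2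
    exact (mp_eq h1 h2).symm
  have hGp : PP (anS s₀) G := by
    intro k
    simp only [hG, mp_coeff_expand]
    refine (anS s₀).add_mem (cst_an _) (sum_mem_fun fun i _ => ?_)
    by_cases hk : k = i
    · simp only [hk, if_true]
      exact (hF i).an
    · simp only [hk, if_false]
      exact (anS s₀).zero_mem
  obtain ⟨lam, hl, h1⟩ := rell_an s₀ d G hGp (fun s => mp_monic _ _) (fun s => mp_natDegree _ _)
    (by
      filter_upwards [hGF, hr] with s h1 h2 z hz
      rw [← h1] at hz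
      exact h2 z hz)
  have h2 : ∀ᶠ s in 𝓝[≠] s₀, F s = ∏ i, (X - C (lam i s)) := by
    filter_upwards [hGF, h1] with s h3 h4
    rw [h3, h4]
  have hroot : ∀ i, ∀ᶠ s in 𝓝[≠] s₀, (F s).eval (lam i s) = 0 := by
    intro i
    filter_upwards [h2] with s hs
    rw [hs, eval_prod]
    exact Finset.prod_eq_zero (Finset.mem_univ i) (by simp)
  refine ⟨lam, ?_, ?_, ?_⟩
  · intro i
    refine ⟨hl i, Alg.root (d := d) (c := fun k s => (F s).coeff k) (fun k _ => (hF k).alg)
      (fun k _ => (hF k).an) ?_⟩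
    filter_upwards [hroot i, hm, hd] with s h3 h4 h5
    have h6 := h4.as_sum
    rw [h6, h5] at h3
    simpa [eval_add, eval_finsetSum] using h3
  · intro i
    have h3 : ∀ᶠ s in 𝓝[≠] s₀, (lam i s).im = 0 := by
      filter_upwards [hroot i, hr] with s h4 h5
      exact h5 _ h4
    have h4 : ∀ᶠ s in 𝓝 s₀, (((lam i s).im : ℝ) : ℂ) = 0 := by
      refine eq_of_punct (f := fun s => (((lam i s).im : ℝ) : ℂ)) (g := fun _ => 0) ?_
        continuousAt_const ?_
      · exact Complex.continuous_ofReal.continuousAt.comp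
          (Complex.continuous_im.continuousAt.comp (hl i).continuousAt)
      · filter_upwards [h3] with s hs
        rw [hs, Complex.ofReal_zero]
    filter_upwards [h4] with s hs
    exact_mod_cast hs
  · refine poly_eq_of_punct hF.an ?_ h2
    refine PP.prod cst_an fun i _ => ?_
    exact (PP.const cst_an X).sub (PP.C (hl i))

end Vale.Agent.P256.H283
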